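import Mathlib

namespace Vale.Agent.Lib.P358

open Matrix Finset
open scoped ComplexOrder

section Real

lemma sub_le_mul_log_sub {a b : ℝ} (ha : 0 ≤ a) (hb : 0 < b) :
    a - b ≤ a * Real.log a - a * Real.log b := by
  rcases ha.eq_or_lt with rfl | ha
  · simp [hb.le]
  · have h := Real.log_le_sub_one_of_pos (div_pos hb ha)
    rw [Real.log_div hb.ne' ha.ne'] at h
    have h2 : a * (Real.log b - Real.log a) ≤ a * (b / a - 1) := mul_le_mul_of_nonneg_left h ha.le
    have h3 : a * (b / a - 1) = b - a := by field_simp
    nlinarith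

/-- A form of Jensen's inequality for the logarithm. -/
lemma sum_mul_neg_log_le {d : Type*} [Fintype d] (w D : d → ℝ) (hw : ∀ x, 0 ≤ w x)
    (hw1 : ∑ x, w x = 1) (hD : ∀ x, 0 < D x) :
    -∑ x, w x * Real.log (D x) ≤ Real.log (∑ x, w x / D x) := by
  set κ := ∑ x, w x / D x with hκ
  have hκpos : 0 < κ := by
    have hnn : ∀ x ∈ (univ : Finset d), 0 ≤ w x / D x := fun x _ => div_nonneg (hw x) (hD x).le
    rcases (Finset.sum_nonneg hnn).eq_or_lt with h | h
    · exfalso
      have h0 := (Finset.sum_eq_zero_iff_of_nonneg hnn).1 h.symm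
      have : ∑ x, w x = 0 := Finset.sum_eq_zero fun x hx => by
        have := h0 x hx
        rcases div_eq_zero_iff.1 this with h | h
        · exact h
        · exact absurd h (hD x).ne'
      linarith
    · exact h
  have key : ∀ x, w x * (-Real.log (D x)) ≤ w x * ((1 / D x) / κ - 1 + Real.log κ) := by
    intro x
    apply mul_le_mul_of_nonneg_left _ (hw x)
    have hy : 0 < (1 / D x) / κ := div_pos (one_div_pos.2 (hD x)) hκpos
    have h := Real.log_le_sub_one_of_pos hy
    rw [Real.log_div (one_div_pos.2 (hD x)).ne' hκpos.ne', one_div, Real.log_inv] at h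
    rw [one_div]
    linarith
  calc -∑ x, w x * Real.log (D x) = ∑ x, w x * (-Real.log (D x)) := by
        rw [← Finset.sum_neg_distrib]; exact Finset.sum_congr rfl fun x _ => by ring
    _ ≤ ∑ x, w x * ((1 / D x) / κ - 1 + Real.log κ) := Finset.sum_le_sum fun x _ => key x
    _ = (∑ x, w x / D x) / κ + (∑ x, w x) * (Real.log κ - 1) := by
        rw [Finset.sum_div, Finset.sum_mul, ← Finset.sum_add_distrib]
        exact Finset.sum_congr rfl fun x _ => by ring
    _ = Real.log κ := by
        rw [hw1, ← hκ, div_self hκpos.ne']; ring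

end Real

section Spectral

variable {d : Type*} [Fintype d] [DecidableEq d]

/-- Spectral data of a Hermitian matrix in coordinates. -/
lemma exists_spectral (A : Matrix d d ℂ) (hA : A.IsHermitian) :
    ∃ U : d → d → ℂ,
      (∀ x y, A x y = ∑ i, (hA.eigenvalues i : ℂ) * (U x i * star (U y i))) ∧
      (∀ x, ∑ i, Complex.normSq (U x i) = 1) ∧ (∀ i, ∑ x, Complex.normSq (U x i) = 1) := by
  refine ⟨fun x i => (hA.eigenvectorUnitary : Matrix d d ℂ) x i, ?_, ?_, ?_⟩
  · intro x y
    conv_lhs => rw [hA.spectral_theorem]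
    rw [Unitary.conjStarAlgAut_apply]
    simp only [Matrix.mul_apply, Matrix.diagonal_apply, Matrix.star_apply]
    simp
    exact Finset.sum_congr rfl fun _ _ => by ring
  · intro x
    have h := Matrix.mem_unitaryGroup_iff.1 hA.eigenvectorUnitary.2
    have h2 := congrFun (congrFun h x) x
    simp only [Matrix.mul_apply, Matrix.star_apply, Matrix.one_apply_eq] at h2
    have h3 : ((∑ i, Complex.normSq ((hA.eigenvectorUnitary : Matrix d d ℂ) x i) : ℝ) : ℂ) = 1 := by
      rw [← h2]
      push_cast
      exact Finset.sum_congr rfl fun i _ => by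
        rw [Complex.normSq_eq_conj_mul_self, mul_comm]; rfl
    exact_mod_cast h3
  · intro i
    have h := Matrix.mem_unitaryGroup_iff'.1 hA.eigenvectorUnitary.2
    have h2 := congrFun (congrFun h i) i
    simp only [Matrix.mul_apply, Matrix.star_apply, Matrix.one_apply_eq] at h2
    have h3 : ((∑ x, Complex.normSq ((hA.eigenvectorUnitary : Matrix d d ℂ) x i) : ℝ) : ℂ) = 1 := by
      rw [← h2]
      push_cast
      exact Finset.sum_congr rfl fun i _ => by
        rw [Complex.normSq_eq_conj_mul_self]; rfl
    exact_mod_cast h3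

omit [DecidableEq d] in
/-- diagonal entries in terms of spectral data -/
lemma diag_re_eq (A : Matrix d d ℂ) (lam : d → ℝ) (U : d → d → ℂ)
    (hU : ∀ x y, A x y = ∑ i, (lam i : ℂ) * (U x i * star (U y i))) (x : d) :
    (A x x).re = ∑ i, lam i * Complex.normSq (U x i) := by
  rw [hU x x, Complex.re_sum]
  refine Finset.sum_congr rfl fun i _ => ?_
  have : U x i * star (U x i) = (Complex.normSq (U x i) : ℂ) := by
    rw [Complex.normSq_eq_conj_mul_self, mul_comm]; rfl
  rw [this, ← Complex.ofReal_mul, Complex.ofReal_re]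

/-- **Klein/Gibbs inequality against a diagonal reference.**  For a density matrix `A` and a
probability vector `σ` with positive entries, `S(A) ≤ - ∑ x, A x x * log (σ x)` (natural logs). -/
lemma entropy_le_cross (A : Matrix d d ℂ) (hA : A.PosSemidef) (htr : A.trace = 1)
    (σ : d → ℝ) (hσ : ∀ x, 0 < σ x) (hσ1 : ∑ x, σ x = 1) :
    ∑ i, Real.negMulLog (hA.1.eigenvalues i) ≤ -∑ x, (A x x).re * Real.log (σ x) := by
  obtain ⟨U, hU, hrow, hcol⟩ := exists_spectral A hA.1
  set lam := hA.1.eigenvalues with hlam
  have hnn : ∀ i, 0 ≤ lam i := fun i => hA.eigenvalues_nonneg i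
  have hsum : ∑ i, lam i = 1 := by
    have h := hA.1.trace_eq_sum_eigenvalues
    rw [htr] at h
    have : ((∑ i, lam i : ℝ) : ℂ) = 1 := by rw [h]; push_cast; rfl
    exact_mod_cast this
  have h1 : ∑ i, Real.negMulLog (lam i)
      = ∑ x, ∑ i, Complex.normSq (U x i) * Real.negMulLog (lam i) := by
    rw [Finset.sum_comm]
    refine Finset.sum_congr rfl fun i _ => ?_
    rw [← Finset.sum_mul, hcol i, one_mul]
  have h2 : -∑ x, (A x x).re * Real.log (σ x)
      = ∑ x, ∑ i, Complex.normSq (U x i) * (-(lam i * Real.log (σ x))) := by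
    rw [← Finset.sum_neg_distrib]
    refine Finset.sum_congr rfl fun x _ => ?_
    rw [diag_re_eq A lam U hU x, Finset.sum_mul, ← Finset.sum_neg_distrib]
    exact Finset.sum_congr rfl fun i _ => by ring
  have h3 : ∑ x, ∑ i, Complex.normSq (U x i) * (lam i - σ x) = 0 := by
    have e1 : ∑ x, ∑ i, Complex.normSq (U x i) * (lam i - σ x)
        = ∑ x, ∑ i, Complex.normSq (U x i) * lam i - ∑ x, ∑ i, Complex.normSq (U x i) * σ x := by
      rw [← Finset.sum_sub_distrib]
      refine Finset.sum_congr rfl fun x _ => ?_
      rw [← Finset.sum_sub_distrib]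
      exact Finset.sum_congr rfl fun i _ => by ring
    have e2 : ∑ x, ∑ i, Complex.normSq (U x i) * lam i = 1 := by
      rw [Finset.sum_comm, ← hsum]
      refine Finset.sum_congr rfl fun i _ => ?_
      rw [← Finset.sum_mul, hcol i, one_mul]
    have e3 : ∑ x, ∑ i, Complex.normSq (U x i) * σ x = 1 := by
      rw [← hσ1]
      refine Finset.sum_congr rfl fun x _ => ?_
      rw [← Finset.sum_mul, hrow x, one_mul]
    rw [e1, e2, e3, sub_self]
  rw [h1, h2, ← sub_nonneg, ← Finset.sum_sub_distrib]
  rw [← h3]
  refine Finset.sum_le_sum fun x _ => ?_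
  rw [← Finset.sum_sub_distrib]
  refine Finset.sum_le_sum fun i _ => ?_
  rw [← mul_sub]
  apply mul_le_mul_of_nonneg_left _ (Complex.normSq_nonneg _)
  have := sub_le_mul_log_sub (hnn i) (hσ x)
  simp only [Real.negMulLog]
  linarith

/-- **Entropy lower bound from a diagonal operator bound.**  If `A ≤ diag D` as quadratic forms,
then `- ∑ x, A x x * log (D x) ≤ S(A)` (natural logs). -/
lemma cross_le_entropy (A : Matrix d d ℂ) (hA : A.PosSemidef)
    (D : d → ℝ) (hD : ∀ x, 0 < D x)
    (hle : ∀ v : d → ℂ, (∑ x, ∑ y, star (v x) * A x y * v y).re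
      ≤ ∑ x, D x * Complex.normSq (v x)) :
    -∑ x, (A x x).re * Real.log (D x) ≤ ∑ i, Real.negMulLog (hA.1.eigenvalues i) := by
  obtain ⟨U, hU, hrow, hcol⟩ := exists_spectral A hA.1
  set lam := hA.1.eigenvalues with hlam
  have hnn : ∀ i, 0 ≤ lam i := fun i => hA.eigenvalues_nonneg i
  -- the quadratic form in spectral coordinates
  have hquad : ∀ v : d → ℂ, (∑ x, ∑ y, star (v x) * A x y * v y).re
      = ∑ j, lam j * Complex.normSq (∑ x, star (v x) * U x j) := by
    intro v
    have e : ∑ x, ∑ y, star (v x) * A x y * v y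
        = ∑ j, (lam j : ℂ) * ((∑ x, star (v x) * U x j) * star (∑ x, star (v x) * U x j)) := by
      have e1 : ∀ j, (∑ x, star (v x) * U x j) * star (∑ x, star (v x) * U x j)
          = ∑ x, ∑ y, star (v x) * U x j * (star (U y j) * v y) := by
        intro j
        rw [star_sum, Finset.sum_mul_sum]
        refine Finset.sum_congr rfl fun x _ => Finset.sum_congr rfl fun y _ => ?_
        rw [star_mul', star_star]
        ring
      calc ∑ x, ∑ y, star (v x) * A x y * v y
          = ∑ x, ∑ y, ∑ j, (lam j : ℂ) * (star (v x) * U x j * (star (U y j) * v y)) := by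
            refine Finset.sum_congr rfl fun x _ => Finset.sum_congr rfl fun y _ => ?_
            rw [hU x y, Finset.mul_sum, Finset.sum_mul]
            exact Finset.sum_congr rfl fun j _ => by ring
        _ = ∑ x, ∑ j, ∑ y, (lam j : ℂ) * (star (v x) * U x j * (star (U y j) * v y)) :=
            Finset.sum_congr rfl fun x _ => Finset.sum_comm
        _ = ∑ j, ∑ x, ∑ y, (lam j : ℂ) * (star (v x) * U x j * (star (U y j) * v y)) :=
            Finset.sum_comm
        _ = _ := by
            refine Finset.sum_congr rfl fun j _ => ?_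
            rw [e1 j, Finset.mul_sum]
            exact Finset.sum_congr rfl fun x _ => by rw [Finset.mul_sum]
    rw [e, Complex.re_sum]
    refine Finset.sum_congr rfl fun j _ => ?_
    have : (∑ x, star (v x) * U x j) * star (∑ x, star (v x) * U x j)
        = (Complex.normSq (∑ x, star (v x) * U x j) : ℂ) := by
      rw [Complex.normSq_eq_conj_mul_self, mul_comm]; rfl
    rw [this, ← Complex.ofReal_mul, Complex.ofReal_re]
  -- the key eigenvalue estimate
  have key : ∀ i, lam i * Real.log (lam i)
      ≤ lam i * ∑ x, Complex.normSq (U x i) * Real.log (D x) := by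
    intro i
    rcases (hnn i).eq_or_lt with h0 | hpos
    · rw [← h0]; simp
    apply mul_le_mul_of_nonneg_left _ hpos.le
    set κ := ∑ x, Complex.normSq (U x i) / D x with hκ
    have hJ := sum_mul_neg_log_le (fun x => Complex.normSq (U x i)) D
      (fun x => Complex.normSq_nonneg _) (hcol i) hD
    rw [← hκ] at hJ
    have hκpos : 0 < κ := by
      have hnn' : ∀ x ∈ (univ : Finset d), 0 ≤ Complex.normSq (U x i) / D x :=
        fun x _ => div_nonneg (Complex.normSq_nonneg _) (hD x).le
      rcases (Finset.sum_nonneg hnn').eq_or_lt with h | h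
      · exfalso
        have h0 := (Finset.sum_eq_zero_iff_of_nonneg hnn').1 h.symm
        have : ∑ x, Complex.normSq (U x i) = 0 := Finset.sum_eq_zero fun x hx => by
          have := h0 x hx
          rcases div_eq_zero_iff.1 this with h | h
          · exact h
          · exact absurd h (hD x).ne'
        rw [hcol i] at this
        exact one_ne_zero this
      · exact h
    -- test vector
    let v : d → ℂ := fun x => U x i / (D x : ℂ)
    have hv1 : ∑ x, star (v x) * U x i = (κ : ℂ) := by
      rw [hκ]
      push_cast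
      refine Finset.sum_congr rfl fun x _ => ?_
      simp only [v]
      rw [star_div₀, Complex.normSq_eq_conj_mul_self]
      have : star (D x : ℂ) = (D x : ℂ) := Complex.conj_ofReal _
      rw [this]
      simp only [Complex.star_def]
      ring
    have hv2 : ∑ x, D x * Complex.normSq (v x) = κ := by
      rw [hκ]
      refine Finset.sum_congr rfl fun x _ => ?_
      simp only [v]
      rw [Complex.normSq_div, Complex.normSq_ofReal]
      have := (hD x).ne'
      field_simp
    have h1 := hle v
    rw [hquad v, hv2] at h1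
    have h2 : lam i * Complex.normSq (∑ x, star (v x) * U x i)
        ≤ ∑ j, lam j * Complex.normSq (∑ x, star (v x) * U x j) :=
      Finset.single_le_sum (f := fun j => lam j * Complex.normSq (∑ x, star (v x) * U x j))
        (fun j _ => mul_nonneg (hnn j) (Complex.normSq_nonneg _)) (Finset.mem_univ i)
    rw [hv1, Complex.normSq_ofReal] at h2
    have h3 : lam i * κ ≤ 1 := by
      have : lam i * (κ * κ) ≤ κ := le_trans h2 h1
      by_contra hcon
      push Not at hcon
      nlinarith
    have h4 : Real.log (lam i) + Real.log κ ≤ 0 := by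
      rw [← Real.log_mul hpos.ne' hκpos.ne']
      exact Real.log_nonpos (mul_nonneg hpos.le hκpos.le) h3
    linarith
  have h2 : ∑ x, (A x x).re * Real.log (D x)
      = ∑ i, lam i * ∑ x, Complex.normSq (U x i) * Real.log (D x) := by
    simp_rw [diag_re_eq A lam U hU, Finset.sum_mul, Finset.mul_sum]
    rw [Finset.sum_comm]
    exact Finset.sum_congr rfl fun i _ => Finset.sum_congr rfl fun x _ => by ring
  rw [h2, ← Finset.sum_neg_distrib]
  refine Finset.sum_le_sum fun i _ => ?_
  have := key i
  simp only [Real.negMulLog]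
  linarith

end Spectral

end Vale.Agent.Lib.P358
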