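import Vale.Agent.Lib.P358.Channel
import Vale.Agent.Lib.P358.Entropy

namespace Vale.Agent.Lib.P358

open Matrix Finset
open scoped ComplexOrder

variable {n : ℕ}

lemma vnEntropy_eq {d : Type*} [Fintype d] [DecidableEq d] (A : Matrix d d ℂ) (hA : A.PosSemidef) :
    vnEntropy A = (∑ i, Real.negMulLog (hA.1.eigenvalues i)) / Real.log 2 := by
  rw [vnEntropy, dif_pos hA.1]

/-- population estimate for one site -/
lemma pop_site (γ ν : ℝ) (ℓ : Fin 2 → ℝ) (B : ℝ)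
    (hB0 : (1 - γ * ν) * ℓ 0 + γ * ν * ℓ 1 ≤ B)
    (hB1 : γ * (1 - ν) * ℓ 0 + (1 - γ * (1 - ν)) * ℓ 1 ≤ B)
    (ρ : Matrix (Q n) (Q n) ℂ) (hρ : ρ.PosSemidef) (htr : ρ.trace = 1) (r₀ : Fin n) :
    ∑ x, (tensorPow (gadc γ ν) n ρ x x).re * ℓ (x r₀) ≤ B := by
  classical
  let m : Fin 2 → ℝ := ![(1 - γ * ν) * ℓ 0 + γ * ν * ℓ 1, γ * (1 - ν) * ℓ 0 + (1 - γ * (1 - ν)) * ℓ 1]
  have hm : ∀ a, m a ≤ B := by
    intro a
    fin_cases a
    · exact hB0
    · exact hB1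
  have h := diag_sum (gadc γ ν)
    (fun r y => if r = r₀ then (ℓ y : ℂ) else 1) (fun r a => if r = r₀ then (m a : ℂ) else 1)
    (fun r a a' => by
      by_cases hr : r = r₀
      · simp only [hr, if_true]
        rw [gadc_diag]
        fin_cases a <;> fin_cases a' <;> simp [m]
      · simp only [hr, if_false]
        rw [gadc_diag]
        fin_cases a <;> fin_cases a' <;> simp) ρ
  have e1 : ∀ x : Q n, ∏ r, (if r = r₀ then (ℓ (x r) : ℂ) else 1) = (ℓ (x r₀) : ℂ) := by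
    intro x
    rw [Finset.prod_ite_eq' Finset.univ r₀ (fun r => (ℓ (x r) : ℂ))]
    simp
  have e2 : ∀ k : Q n, ∏ r, (if r = r₀ then (m (k r) : ℂ) else 1) = (m (k r₀) : ℂ) := by
    intro k
    rw [Finset.prod_ite_eq' Finset.univ r₀ (fun r => (m (k r) : ℂ))]
    simp
  simp only [e1, e2] at h
  have h' := congrArg Complex.re h
  simp only [Complex.re_sum, Complex.re_mul_ofReal] at h'
  rw [h']
  have hdiag : ∀ k, 0 ≤ (ρ k k).re := fun k => (Complex.le_def.1 (hρ.diag_nonneg (i := k))).1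
  have hsum : ∑ k, (ρ k k).re = 1 := by
    have := congrArg Complex.re htr
    simpa [Matrix.trace, Complex.re_sum] using this
  calc ∑ k, (ρ k k).re * m (k r₀) ≤ ∑ k, (ρ k k).re * B :=
        Finset.sum_le_sum fun k _ => mul_le_mul_of_nonneg_left (hm _) (hdiag k)
    _ = B := by rw [← Finset.sum_mul, hsum, one_mul]

/-- the key single-state estimate, in natural logarithms -/
lemma pop_all (γ ν : ℝ) (T τ : Fin 2 → ℝ) (hT : ∀ b, 0 < T b) (hτ : ∀ b, 0 < τ b) (B : ℝ)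
    (hB0 : (1 - γ * ν) * (Real.log (T 0) - Real.log (τ 0))
      + γ * ν * (Real.log (T 1) - Real.log (τ 1)) ≤ B)
    (hB1 : γ * (1 - ν) * (Real.log (T 0) - Real.log (τ 0))
      + (1 - γ * (1 - ν)) * (Real.log (T 1) - Real.log (τ 1)) ≤ B)
    (ρ : Matrix (Q n) (Q n) ℂ) (hρ : ρ.PosSemidef) (htr : ρ.trace = 1) :
    ∑ x, (tensorPow (gadc γ ν) n ρ x x).re *
      (Real.log (∏ r, T (x r)) - Real.log (∏ r, τ (x r))) ≤ n * B := by
  have e : ∀ x : Q n, Real.log (∏ r, T (x r)) - Real.log (∏ r, τ (x r))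
      = ∑ r, (Real.log (T (x r)) - Real.log (τ (x r))) := by
    intro x
    rw [Real.log_prod (fun r _ => (hT _).ne'), Real.log_prod (fun r _ => (hτ _).ne'),
      Finset.sum_sub_distrib]
  simp only [e, Finset.mul_sum]
  rw [Finset.sum_comm]
  calc ∑ r : Fin n, ∑ x : Q n, (tensorPow (gadc γ ν) n ρ x x).re *
        (Real.log (T (x r)) - Real.log (τ (x r)))
      ≤ ∑ _r : Fin n, B := Finset.sum_le_sum fun r _ =>
        pop_site γ ν (fun b => Real.log (T b) - Real.log (τ b)) B hB0 hB1 ρ hρ htr r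
    _ = n * B := by simp

/-- **Main estimate**: every value of the `n`-letter Holevo quantity is at most `n B / log 2`. -/
lemma holevo_le (γ ν S₀ S₁ y s B : ℝ) (hγ0 : 0 ≤ γ) (hγ1 : γ ≤ 1) (hν0 : 0 ≤ ν) (hν1 : ν ≤ 1)
    (hs0 : 0 < s) (hs1 : s < 1) (hS0 : 0 < S₀) (hS1 : 0 < S₁)
    (h0 : 1 - γ * ν ≤ S₀) (h1 : 1 - γ * (1 - ν) ≤ S₁)
    (hA : (Real.sqrt (1 - γ) - y) ^ 2 ≤ (S₁ - γ * ν) * (S₀ - γ * (1 - ν)))
    (hB : (Real.sqrt (1 - γ) + y) ^ 2 ≤ (S₁ + γ * ν) * (S₀ + γ * (1 - ν)))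
    (hC : y ^ 2 ≤ (S₀ - (1 - γ * ν)) * (S₁ - (1 - γ * (1 - ν))))
    (hB0 : (1 - γ * ν) * (Real.log S₀ - Real.log (1 - s))
      + γ * ν * (Real.log S₁ - Real.log s) ≤ B)
    (hB1 : γ * (1 - ν) * (Real.log S₀ - Real.log (1 - s))
      + (1 - γ * (1 - ν)) * (Real.log S₁ - Real.log s) ≤ B)
    (x : ℝ) (hx : x ∈ holevoValues (tensorPow (gadc γ ν) n)) :
    x ≤ n * B / Real.log 2 := by
  obtain ⟨m, p, ρ, hp, hp1, hρ, rfl⟩ := hx
  have hlog2 : 0 < Real.log 2 := Real.log_pos (by norm_num)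
  set Φ := tensorPow (gadc γ ν) n with hΦ
  have hchoi := choi_gadc_posSemidef γ ν hγ0 hγ1 hν0 hν1
  have hω : ∀ a, (Φ (ρ a)).PosSemidef := fun a => tensorPow_posSemidef _ hchoi _ (hρ a).1
  have hωtr : ∀ a, (Φ (ρ a)).trace = 1 := fun a => by
    rw [hΦ, gadc_pow_trace, (hρ a).2]
  have hbar : (∑ a, (p a : ℂ) • Φ (ρ a)).PosSemidef := by
    apply posSemidef_sum
    intro a _
    exact (hω a).smul (Complex.zero_le_real.2 (hp a))
  have hbartr : (∑ a, (p a : ℂ) • Φ (ρ a)).trace = 1 := by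
    rw [Matrix.trace_sum]
    simp only [Matrix.trace_smul, hωtr, smul_eq_mul, mul_one]
    exact_mod_cast hp1
  let T : Fin 2 → ℝ := Sfun S₀ S₁
  let τ : Fin 2 → ℝ := ![1 - s, s]
  have hT : ∀ b, 0 < T b := by
    intro b; fin_cases b
    · exact hS0
    · exact hS1
  have hτ : ∀ b, 0 < τ b := by
    intro b; fin_cases b
    · simpa [τ] using hs1
    · exact hs0
  have hτsum : ∑ x : Q n, ∏ r, τ (x r) = 1 := by
    have := (Finset.prod_univ_sum (fun _ : Fin n => (Finset.univ : Finset (Fin 2)))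
      (fun _ b => τ b)).symm
    rw [Fintype.piFinset_univ] at this
    rw [this]
    simp [τ, Fin.sum_univ_two]
  -- upper bound on the entropy of the average output
  have up := entropy_le_cross _ hbar hbartr (fun x : Q n => ∏ r, τ (x r))
    (fun x => Finset.prod_pos fun r _ => hτ _) hτsum
  -- lower bound on the entropy of each output
  have low : ∀ a, -∑ x, (Φ (ρ a) x x).re * Real.log (∏ r, T (x r))
      ≤ ∑ i, Real.negMulLog ((hω a).1.eigenvalues i) := fun a =>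
    cross_le_entropy _ (hω a) (fun x : Q n => ∏ r, T (x r))
      (fun x => Finset.prod_pos fun r _ => hT _)
      (fun v => gadc_pow_le γ ν S₀ S₁ y hγ0 hγ1 hν0 hν1 h0 h1 hA hB hC (ρ a) (hρ a).1 (hρ a).2 v)
  have hdiag : ∀ x, ((∑ a, (p a : ℂ) • Φ (ρ a)) x x).re = ∑ a, p a * (Φ (ρ a) x x).re := by
    intro x
    rw [Matrix.sum_apply, Complex.re_sum]
    refine Finset.sum_congr rfl fun a _ => ?_
    simp [Matrix.smul_apply]
  have hpop : ∀ a, ∑ x, (Φ (ρ a) x x).re *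
      (Real.log (∏ r, T (x r)) - Real.log (∏ r, τ (x r))) ≤ n * B := fun a =>
    pop_all γ ν T τ hT hτ B hB0 hB1 (ρ a) (hρ a).1 (hρ a).2
  rw [vnEntropy_eq _ hbar]
  simp only [fun a => vnEntropy_eq _ (hω a)]
  have key : ∑ i, Real.negMulLog (hbar.1.eigenvalues i)
      - ∑ a, p a * ∑ i, Real.negMulLog ((hω a).1.eigenvalues i) ≤ n * B := by
    have h1' : ∑ a, p a * (-∑ x, (Φ (ρ a) x x).re * Real.log (∏ r, T (x r)))
        ≤ ∑ a, p a * ∑ i, Real.negMulLog ((hω a).1.eigenvalues i) :=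
      Finset.sum_le_sum fun a _ => mul_le_mul_of_nonneg_left (low a) (hp a)
    have h2' : -∑ x, ((∑ a, (p a : ℂ) • Φ (ρ a)) x x).re * Real.log (∏ r, τ (x r))
        = ∑ a, p a * (-∑ x, (Φ (ρ a) x x).re * Real.log (∏ r, τ (x r))) := by
      simp only [hdiag, Finset.sum_mul, mul_neg, Finset.mul_sum, Finset.sum_neg_distrib]
      rw [Finset.sum_comm]
      refine congrArg Neg.neg ?_
      exact Finset.sum_congr rfl fun a _ => Finset.sum_congr rfl fun x _ => by ring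
    have h3' : ∑ a, p a * (∑ x, (Φ (ρ a) x x).re *
        (Real.log (∏ r, T (x r)) - Real.log (∏ r, τ (x r)))) ≤ ∑ a, p a * (n * B) :=
      Finset.sum_le_sum fun a _ => mul_le_mul_of_nonneg_left (hpop a) (hp a)
    have h4' : ∑ a, p a * (n * B) = n * B := by rw [← Finset.sum_mul, hp1, one_mul]
    have h5' : ∑ a, p a * (∑ x, (Φ (ρ a) x x).re *
        (Real.log (∏ r, T (x r)) - Real.log (∏ r, τ (x r))))
        = ∑ a, p a * (-∑ x, (Φ (ρ a) x x).re * Real.log (∏ r, τ (x r)))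
          - ∑ a, p a * (-∑ x, (Φ (ρ a) x x).re * Real.log (∏ r, T (x r))) := by
      rw [← Finset.sum_sub_distrib]
      refine Finset.sum_congr rfl fun a _ => ?_
      rw [← mul_sub]
      congr 1
      rw [neg_sub_neg, ← Finset.sum_sub_distrib]
      exact Finset.sum_congr rfl fun x _ => by ring
    rw [h2'] at up
    linarith
  have e : (∑ i, Real.negMulLog (hbar.1.eigenvalues i)) / Real.log 2
      - ∑ a, p a * ((∑ i, Real.negMulLog ((hω a).1.eigenvalues i)) / Real.log 2)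
      = (∑ i, Real.negMulLog (hbar.1.eigenvalues i)
      - ∑ a, p a * ∑ i, Real.negMulLog ((hω a).1.eigenvalues i)) / Real.log 2 := by
    rw [sub_div]
    congr 1
    rw [Finset.sum_div]
    exact Finset.sum_congr rfl fun a _ => by ring
  rw [e]
  exact div_le_div_of_nonneg_right key hlog2.le

end Vale.Agent.Lib.P358
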