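import Vale.Agent.Lib.P358.Shapes

namespace Vale.Agent.Lib.P358

open Matrix Finset
open scoped ComplexOrder

variable {n : ℕ}

/-- The certificate inequality: `A_{γ,ν}^{⊗ n}(ρ) ≤ S^{⊗ n}` as quadratic forms. -/
lemma gadc_pow_le (γ ν S₀ S₁ y : ℝ) (hγ0 : 0 ≤ γ) (hγ1 : γ ≤ 1) (hν0 : 0 ≤ ν) (hν1 : ν ≤ 1)
    (h0 : 1 - γ * ν ≤ S₀) (h1 : 1 - γ * (1 - ν) ≤ S₁)
    (hA : (Real.sqrt (1 - γ) - y) ^ 2 ≤ (S₁ - γ * ν) * (S₀ - γ * (1 - ν)))
    (hB : (Real.sqrt (1 - γ) + y) ^ 2 ≤ (S₁ + γ * ν) * (S₀ + γ * (1 - ν)))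
    (hC : y ^ 2 ≤ (S₀ - (1 - γ * ν)) * (S₁ - (1 - γ * (1 - ν))))
    (ρ : Matrix (Q n) (Q n) ℂ) (hρ : ρ.PosSemidef) (htr : ρ.trace = 1) (φ : Q n → ℂ) :
    (∑ b, ∑ b', star (φ b) * tensorPow (gadc γ ν) n ρ b b' * φ b').re
      ≤ ∑ b, (∏ s, Sfun S₀ S₁ (b s)) * Complex.normSq (φ b) := by
  have ha : 0 ≤ γ * ν := mul_nonneg hγ0 hν0
  have hb : 0 ≤ γ * (1 - ν) := mul_nonneg hγ0 (by linarith)
  have ha1 : γ * ν ≤ 1 := by nlinarith
  have hb1 : γ * (1 - ν) ≤ 1 := by nlinarith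
  have hab : γ * ν + γ * (1 - ν) ≤ 1 := by nlinarith
  set c := Real.sqrt (1 - γ) with hc
  have e1 : ∑ b, ∑ b', star (φ b) * tensorPow (gadc γ ν) n ρ b b' * φ b'
      = EE ρ (star φ) (pw (shapeB (γ * ν) (γ * (1 - ν)) c (1 - γ * ν) (1 - γ * (1 - ν))) n) := by
    rw [quad_eq_EE, choi_gadc, EE_ptr, ptr_shapeA]
  have e2 : EE ρ (star φ) (pw (shapeB (γ * ν) (γ * (1 - ν)) c (1 - γ * ν) (1 - γ * (1 - ν))) n)
      ≤ EE ρ (star φ) (pw (shapeB S₁ S₀ y (1 - γ * ν) (1 - γ * (1 - ν))) n) := by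
    apply EE_mono ρ hρ
    · rw [shapeB_add]
      apply shapeB_posSemidef <;> first | linarith | nlinarith
    · rw [shapeB_sub]
      apply shapeB_posSemidef <;> first | linarith | nlinarith
  have e3 : EE ρ (star φ) (pw (shapeB S₁ S₀ y (1 - γ * ν) (1 - γ * (1 - ν))) n)
      = EE ρ φ (pw (shapeA (1 - γ * ν) (1 - γ * (1 - ν)) y S₁ S₀) n) := by
    rw [EE_ptr, ptr_shapeB, star_star]
  have e4 : EE ρ φ (pw (shapeA (1 - γ * ν) (1 - γ * (1 - ν)) y S₁ S₀) n)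
      ≤ EE ρ φ (pw (shapeA S₀ S₁ 0 S₁ S₀) n) := by
    apply EE_mono ρ hρ
    · rw [shapeA_add]
      apply shapeA_posSemidef <;> first | linarith | nlinarith
    · rw [shapeA_sub]
      apply shapeA_posSemidef <;> first | linarith | nlinarith
  have e5 := EE_diag ρ φ S₀ S₁
  rw [htr, one_mul] at e5
  have h := (e2.trans (e3.le.trans e4))
  rw [← e1, e5] at h
  have h' := (Complex.le_def.1 h).1
  rw [Complex.ofReal_re] at h'
  exact h'

lemma choi_gadc_posSemidef (γ ν : ℝ) (hγ0 : 0 ≤ γ) (hγ1 : γ ≤ 1) (hν0 : 0 ≤ ν) (hν1 : ν ≤ 1) :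
    (choi (gadc γ ν)).PosSemidef := by
  have ha : 0 ≤ γ * ν := mul_nonneg hγ0 hν0
  have hb : 0 ≤ γ * (1 - ν) := mul_nonneg hγ0 (by linarith)
  have ha1 : γ * ν ≤ 1 := by nlinarith
  have hb1 : γ * (1 - ν) ≤ 1 := by nlinarith
  rw [choi_gadc]
  apply shapeA_posSemidef
  · linarith
  · linarith
  · exact ha
  · exact hb
  · rw [Real.sq_sqrt (by linarith)]
    nlinarith [mul_nonneg ha hb]

/-- tensor powers of maps with positive semidefinite Choi kernel preserve positivity -/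
lemma tensorPow_posSemidef (Φ : Matrix (Fin 2) (Fin 2) ℂ → Matrix (Fin 2) (Fin 2) ℂ)
    (hΦ : (choi Φ).PosSemidef) (ρ : Matrix (Q n) (Q n) ℂ) (hρ : ρ.PosSemidef) :
    (tensorPow Φ n ρ).PosSemidef := by
  apply PosSemidef.of_dotProduct_mulVec_nonneg
  · apply Matrix.IsHermitian.ext
    intro i j
    simp only [tensorPow, star_sum, star_mul', star_prod]
    rw [Finset.sum_comm]
    refine Finset.sum_congr rfl fun k _ => Finset.sum_congr rfl fun l _ => ?_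
    have h1 : star (ρ l k) = ρ k l := hρ.1.apply k l
    have h2 : ∀ s, star (Φ (Matrix.single (l s) (k s) 1) (j s) (i s))
        = Φ (Matrix.single (k s) (l s) 1) (i s) (j s) := fun s =>
      hΦ.1.apply (k s, i s) (l s, j s)
    rw [h1]
    simp only [h2]
  · intro φ
    have e : star φ ⬝ᵥ (tensorPow Φ n ρ *ᵥ φ)
        = ∑ b, ∑ b', star (φ b) * tensorPow Φ n ρ b b' * φ b' := by
      simp only [dotProduct, mulVec, Pi.star_apply, Finset.mul_sum, mul_assoc]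
    rw [e, quad_eq_EE]
    exact EE_nonneg ρ hρ φ _ (pw_posSemidef _ hΦ)

/-- weighted sums of the diagonal of the output -/
lemma diag_sum (Φ : Matrix (Fin 2) (Fin 2) ℂ → Matrix (Fin 2) (Fin 2) ℂ)
    (G M : Fin n → Fin 2 → ℂ)
    (h : ∀ r a a', ∑ y, Φ (Matrix.single a a' 1) y y * G r y = if a = a' then M r a else 0)
    (ρ : Matrix (Q n) (Q n) ℂ) :
    ∑ x, tensorPow Φ n ρ x x * ∏ r, G r (x r) = ∑ k, ρ k k * ∏ r, M r (k r) := by
  have inner : ∀ k l : Q n, ∑ x : Q n, (∏ r, Φ (Matrix.single (k r) (l r) 1) (x r) (x r)) *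
      ∏ r, G r (x r) = if k = l then ∏ r, M r (k r) else 0 := by
    intro k l
    calc ∑ x : Q n, (∏ r, Φ (Matrix.single (k r) (l r) 1) (x r) (x r)) * ∏ r, G r (x r)
        = ∑ x : Q n, ∏ r, (Φ (Matrix.single (k r) (l r) 1) (x r) (x r) * G r (x r)) :=
          Finset.sum_congr rfl fun x _ => Finset.prod_mul_distrib.symm
      _ = ∏ r, ∑ y, (Φ (Matrix.single (k r) (l r) 1) y y * G r y) := by
          rw [Finset.prod_univ_sum, Fintype.piFinset_univ]
      _ = ∏ r, (if k r = l r then M r (k r) else 0) :=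
          Finset.prod_congr rfl fun r _ => h r (k r) (l r)
      _ = if k = l then ∏ r, M r (k r) else 0 := by
          rw [Finset.prod_ite_zero]
          by_cases hkl : k = l
          · subst hkl; simp
          · have : ¬ ∀ i ∈ (Finset.univ : Finset (Fin n)), k i = l i := fun hcon =>
              hkl (funext fun i => hcon i (Finset.mem_univ i))
            rw [if_neg this, if_neg hkl]
  obtain ⟨P, hP⟩ : ∃ P : Q n → Q n → Q n → ℂ, ∀ k l x, P k l x =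
      (∏ r, Φ (Matrix.single (k r) (l r) 1) (x r) (x r)) * ∏ r, G r (x r) := ⟨_, fun _ _ _ => rfl⟩
  have inner' : ∀ k l : Q n, ∑ x : Q n, P k l x = if k = l then ∏ r, M r (k r) else 0 := by
    intro k l
    rw [← inner k l]
    exact Finset.sum_congr rfl fun x _ => hP k l x
  have e1 : ∀ x, tensorPow Φ n ρ x x * ∏ r, G r (x r) = ∑ k, ∑ l, ρ k l * P k l x := by
    intro x
    simp only [tensorPow, Finset.sum_mul, hP]
    exact Finset.sum_congr rfl fun k _ => Finset.sum_congr rfl fun l _ => by ring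
  calc ∑ x, tensorPow Φ n ρ x x * ∏ r, G r (x r)
      = ∑ x, ∑ k, ∑ l, ρ k l * P k l x := Finset.sum_congr rfl fun x _ => e1 x
    _ = ∑ k, ∑ x, ∑ l, ρ k l * P k l x := Finset.sum_comm
    _ = ∑ k, ∑ l, ∑ x, ρ k l * P k l x := Finset.sum_congr rfl fun k _ => Finset.sum_comm
    _ = ∑ k, ∑ l, ρ k l * (if k = l then ∏ r, M r (k r) else 0) := by
        refine Finset.sum_congr rfl fun k _ => Finset.sum_congr rfl fun l _ => ?_
        rw [← Finset.mul_sum, inner']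
    _ = ∑ k, ρ k k * ∏ r, M r (k r) := by
        refine Finset.sum_congr rfl fun k _ => ?_
        rw [Finset.sum_eq_single k]
        · rw [if_pos rfl]
        · intro l _ hl
          rw [if_neg (Ne.symm hl), mul_zero]
        · intro hk
          exact absurd (Finset.mem_univ k) hk

lemma gadc_diag (γ ν : ℝ) (g : Fin 2 → ℂ) (a a' : Fin 2) :
    ∑ y, gadc γ ν (Matrix.single a a' 1) y y * g y
      = if a = a' then (![((1 - γ * ν : ℝ) : ℂ) * g 0 + ((γ * ν : ℝ) : ℂ) * g 1,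
          ((γ * (1 - ν) : ℝ) : ℂ) * g 0 + ((1 - γ * (1 - ν) : ℝ) : ℂ) * g 1] : Fin 2 → ℂ) a else 0 := by
  fin_cases a <;> fin_cases a' <;> simp [gadc, Matrix.single, Fin.sum_univ_two]

lemma gadc_pow_trace (γ ν : ℝ) (ρ : Matrix (Q n) (Q n) ℂ) :
    (tensorPow (gadc γ ν) n ρ).trace = ρ.trace := by
  have h := diag_sum (gadc γ ν) (fun _ _ => 1) (fun _ _ => 1) (fun r a a' => by
    rw [gadc_diag]
    fin_cases a <;> fin_cases a' <;> simp) ρ
  simpa [Matrix.trace] using h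

end Vale.Agent.Lib.P358
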