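import Mathlib

namespace Vale.Agent.Lib.P358

open Matrix
open scoped ComplexOrder

/-- Computational-basis index set of `n` qubits. -/
abbrev Q (n : ℕ) := Fin n → Fin 2

/-- The generalized amplitude-damping channel `A_{γ,ν}` as a (linear) map on `2 × 2` complex
matrices; on `!![1 - q, z; conj z, q]` it gives `!![1 - t, √(1-γ) z; √(1-γ) conj z, t]` with
`t = (1 - γ) q + γ ν`. -/
noncomputable def gadc (γ ν : ℝ) (X : Matrix (Fin 2) (Fin 2) ℂ) : Matrix (Fin 2) (Fin 2) ℂ :=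
  !![((1 - γ * ν : ℝ) : ℂ) * X 0 0 + ((γ * (1 - ν) : ℝ) : ℂ) * X 1 1,
      ((Real.sqrt (1 - γ) : ℝ) : ℂ) * X 0 1;
     ((Real.sqrt (1 - γ) : ℝ) : ℂ) * X 1 0,
      ((γ * ν : ℝ) : ℂ) * X 0 0 + ((1 - γ * (1 - ν) : ℝ) : ℂ) * X 1 1]

/-- The `n`-fold tensor power `Φ^{⊗ n}` of a linear map `Φ` on `2 × 2` matrices, in coordinates:
its matrix elements are the products of the matrix elements `Φ(E_{kl})_{ij}` of `Φ`. -/
noncomputable def tensorPow (Φ : Matrix (Fin 2) (Fin 2) ℂ → Matrix (Fin 2) (Fin 2) ℂ) (n : ℕ)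
    (X : Matrix (Q n) (Q n) ℂ) : Matrix (Q n) (Q n) ℂ :=
  fun i j => ∑ k, ∑ l, (∏ s, Φ (Matrix.single (k s) (l s) 1) (i s) (j s)) * X k l

/-- Density matrices: positive semidefinite with unit trace. -/
def IsDensity {d : Type*} [Fintype d] (ρ : Matrix d d ℂ) : Prop :=
  ρ.PosSemidef ∧ ρ.trace = 1

/-- von Neumann entropy in bits: `-∑ λ log₂ λ` over the eigenvalues (0 on non-Hermitian input). -/
noncomputable def vnEntropy {d : Type*} [Fintype d] [DecidableEq d] (ρ : Matrix d d ℂ) : ℝ :=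
  if h : ρ.IsHermitian then (∑ i, Real.negMulLog (h.eigenvalues i)) / Real.log 2 else 0

/-- The set of values of the Holevo quantity of `Φ` over all finite ensembles of input states. -/
def holevoValues {d : Type*} [Fintype d] [DecidableEq d] (Φ : Matrix d d ℂ → Matrix d d ℂ) :
    Set ℝ :=
  {x | ∃ (m : ℕ) (p : Fin m → ℝ) (ρ : Fin m → Matrix d d ℂ),
      (∀ a, 0 ≤ p a) ∧ ∑ a, p a = 1 ∧ (∀ a, IsDensity (ρ a)) ∧
      x = vnEntropy (∑ a, (p a : ℂ) • Φ (ρ a)) - ∑ a, p a * vnEntropy (Φ (ρ a))}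

/-- The classical capacity `C(A_{γ,ν}) = sup_{n ≥ 1} χ(A_{γ,ν}^{⊗ n}) / n`, as a supremum in the
extended reals over `n ≥ 1` and over all ensembles of (possibly entangled) `n`-qubit states. -/
noncomputable def capacity (γ ν : ℝ) : EReal :=
  ⨆ (n : ℕ) (_ : 1 ≤ n) (x : ℝ) (_ : x ∈ holevoValues (tensorPow (gadc γ ν) n)),
    ((x / n : ℝ) : EReal)

end Vale.Agent.Lib.P358
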