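import Vale.Agent.Lib.P358.Defs

namespace Vale.Agent.Lib.P358

open Matrix Finset
open scoped ComplexOrder

section General

variable {ι κ : Type*} [Fintype ι]

lemma posSemidef_ones : (Matrix.of fun (_ _ : ι) => (1 : ℂ)).PosSemidef := by
  have h := posSemidef_vecMulVec_self_star (R := ℂ) (fun _ : ι => (1 : ℂ))
  have e : (Matrix.of fun (_ _ : ι) => (1 : ℂ)) = vecMulVec (fun _ : ι => (1 : ℂ)) (star fun _ => 1) := by
    ext p q
    simp [vecMulVec_apply]
  rw [e]
  exact h

/-- entrywise products: if `X s ± Y s` are all positive semidefinite, so are `∏ X s ± ∏ Y s`. -/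
lemma posSemidef_prod_pm (t : Finset κ) (X Y : κ → Matrix ι ι ℂ)
    (hp : ∀ s, (X s + Y s).PosSemidef) (hm : ∀ s, (X s - Y s).PosSemidef) :
    (Matrix.of fun p q => ∏ s ∈ t, X s p q + ∏ s ∈ t, Y s p q).PosSemidef ∧
    (Matrix.of fun p q => ∏ s ∈ t, X s p q - ∏ s ∈ t, Y s p q).PosSemidef := by
  classical
  induction t using Finset.induction_on with
  | empty =>
    constructor
    · have h := (posSemidef_ones (ι := ι)).add (posSemidef_ones (ι := ι))
      have e : (Matrix.of fun p q => ∏ s ∈ (∅ : Finset κ), X s p q + ∏ s ∈ (∅ : Finset κ), Y s p q)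
          = (Matrix.of fun (_ _ : ι) => (1 : ℂ)) + (Matrix.of fun (_ _ : ι) => (1 : ℂ)) := by
        ext p q
        simp
      rw [e]
      exact h
    · have e : (Matrix.of fun p q => ∏ s ∈ (∅ : Finset κ), X s p q - ∏ s ∈ (∅ : Finset κ), Y s p q)
          = 0 := by
        ext p q
        simp
      rw [e]
      exact PosSemidef.zero
  | insert a t ha ih =>
    obtain ⟨ih1, ih2⟩ := ih
    have half : (0 : ℝ) ≤ 1 / 2 := by norm_num
    constructor
    · have h := (((hp a).hadamard ih1).add ((hm a).hadamard ih2)).smul half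
      have e : (Matrix.of fun p q => ∏ s ∈ insert a t, X s p q + ∏ s ∈ insert a t, Y s p q)
          = (1 / 2 : ℝ) • (((X a + Y a) ⊙ of fun p q => ∏ s ∈ t, X s p q + ∏ s ∈ t, Y s p q) +
            (X a - Y a) ⊙ of fun p q => ∏ s ∈ t, X s p q - ∏ s ∈ t, Y s p q) := by
        ext p q
        simp only [Finset.prod_insert ha, Matrix.of_apply, Matrix.smul_apply, Matrix.add_apply,
          Matrix.hadamard_apply, Matrix.sub_apply, Complex.real_smul]
        push_cast
        ring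
      rw [e]
      exact h
    · have h := (((hp a).hadamard ih2).add ((hm a).hadamard ih1)).smul half
      have e : (Matrix.of fun p q => ∏ s ∈ insert a t, X s p q - ∏ s ∈ insert a t, Y s p q)
          = (1 / 2 : ℝ) • (((X a + Y a) ⊙ of fun p q => ∏ s ∈ t, X s p q - ∏ s ∈ t, Y s p q) +
            (X a - Y a) ⊙ of fun p q => ∏ s ∈ t, X s p q + ∏ s ∈ t, Y s p q) := by
        ext p q
        simp only [Finset.prod_insert ha, Matrix.of_apply, Matrix.smul_apply, Matrix.add_apply,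
          Matrix.hadamard_apply, Matrix.sub_apply, Complex.real_smul]
        push_cast
        ring
      rw [e]
      exact h

lemma posSemidef_prod (t : Finset κ) (X : κ → Matrix ι ι ℂ) (h : ∀ s, (X s).PosSemidef) :
    (Matrix.of fun p q => ∏ s ∈ t, X s p q).PosSemidef := by
  have h1 := (posSemidef_prod_pm t X X (fun s => (h s).add (h s))
    (fun s => by rw [sub_self]; exact PosSemidef.zero)).1
  have half : (0 : ℝ) ≤ 1 / 2 := by norm_num
  have e : (Matrix.of fun p q => ∏ s ∈ t, X s p q)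
      = (1 / 2 : ℝ) • (Matrix.of fun p q => ∏ s ∈ t, X s p q + ∏ s ∈ t, X s p q) := by
    ext p q
    simp only [Matrix.of_apply, Matrix.smul_apply, Complex.real_smul]
    push_cast
    ring
  rw [e]
  exact h1.smul half

/-- pairing of two positive semidefinite kernels is nonnegative -/
lemma pairing_nonneg (W T : Matrix ι ι ℂ) (hW : W.PosSemidef) (hT : T.PosSemidef) :
    0 ≤ ∑ p, ∑ q, W p q * T p q := by
  have h := (hW.hadamard hT).dotProduct_mulVec_nonneg (fun _ => (1 : ℂ))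
  simpa [dotProduct, mulVec, Matrix.hadamard_apply] using h

end General

section Qubits

variable {n : ℕ}

/-- index set of a Choi-type kernel: (input index, output index) -/
abbrev A2 := Fin 2 × Fin 2

/-- `n`-fold product kernel -/
def pw (K : Matrix A2 A2 ℂ) (n : ℕ) : Matrix (Q n × Q n) (Q n × Q n) ℂ :=
  Matrix.of fun p q => ∏ s, K (p.1 s, p.2 s) (q.1 s, q.2 s)

/-- partial transpose on the output index -/
def ptr (K : Matrix A2 A2 ℂ) : Matrix A2 A2 ℂ :=
  Matrix.of fun i j => K (i.1, j.2) (j.1, i.2)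

/-- Choi kernel of a map on `2 × 2` matrices -/
noncomputable def choi (Φ : Matrix (Fin 2) (Fin 2) ℂ → Matrix (Fin 2) (Fin 2) ℂ) : Matrix A2 A2 ℂ :=
  Matrix.of fun i j => Φ (Matrix.single i.1 j.1 1) i.2 j.2

lemma pw_sub_posSemidef (X Y : Matrix A2 A2 ℂ) (hp : (X + Y).PosSemidef)
    (hm : (X - Y).PosSemidef) : (pw X n - pw Y n).PosSemidef := by
  have h := (posSemidef_prod_pm (ι := Q n × Q n) (Finset.univ : Finset (Fin n))
    (fun s => X.submatrix (fun p : Q n × Q n => (p.1 s, p.2 s)) (fun p => (p.1 s, p.2 s)))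
    (fun s => Y.submatrix (fun p : Q n × Q n => (p.1 s, p.2 s)) (fun p => (p.1 s, p.2 s)))
    (fun s => hp.submatrix _) (fun s => hm.submatrix _)).2
  exact h

lemma pw_posSemidef (X : Matrix A2 A2 ℂ) (hX : X.PosSemidef) : (pw X n).PosSemidef := by
  have h := posSemidef_prod (ι := Q n × Q n) (Finset.univ : Finset (Fin n))
    (fun s => X.submatrix (fun p : Q n × Q n => (p.1 s, p.2 s)) (fun p => (p.1 s, p.2 s)))
    (fun s => hX.submatrix _)
  exact h

/-- the basic four-index functional -/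
noncomputable def EE (ρ : Matrix (Q n) (Q n) ℂ) (φ : Q n → ℂ)
    (T : Matrix (Q n × Q n) (Q n × Q n) ℂ) : ℂ :=
  ∑ a, ∑ a', ∑ b, ∑ b', ρ a a' * (star (φ b) * φ b') * T (a, b) (a', b')

lemma EE_nonneg (ρ : Matrix (Q n) (Q n) ℂ) (hρ : ρ.PosSemidef) (φ : Q n → ℂ)
    (T : Matrix (Q n × Q n) (Q n × Q n) ℂ) (hT : T.PosSemidef) : 0 ≤ EE ρ φ T := by
  have hW : ((ρ.submatrix (Prod.fst : Q n × Q n → Q n) Prod.fst) ⊙
      ((vecMulVec (star φ) (star (star φ))).submatrix (Prod.snd : Q n × Q n → Q n)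
        Prod.snd)).PosSemidef :=
    (hρ.submatrix _).hadamard ((posSemidef_vecMulVec_self_star (star φ)).submatrix _)
  have h := pairing_nonneg _ T hW hT
  have e : EE ρ φ T = ∑ p : Q n × Q n, ∑ q : Q n × Q n,
      ((ρ.submatrix (Prod.fst : Q n × Q n → Q n) Prod.fst) ⊙
      ((vecMulVec (star φ) (star (star φ))).submatrix (Prod.snd : Q n × Q n → Q n)
        Prod.snd)) p q * T p q := by
    simp only [EE, Fintype.sum_prod_type, Matrix.hadamard_apply, Matrix.submatrix_apply,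
      vecMulVec_apply, Pi.star_apply, star_star]
    exact Finset.sum_congr rfl fun a _ => Finset.sum_comm
  rw [e]
  exact h

lemma EE_sub (ρ : Matrix (Q n) (Q n) ℂ) (φ : Q n → ℂ)
    (T₁ T₂ : Matrix (Q n × Q n) (Q n × Q n) ℂ) :
    EE ρ φ (T₁ - T₂) = EE ρ φ T₁ - EE ρ φ T₂ := by
  simp only [EE, Matrix.sub_apply, mul_sub, Finset.sum_sub_distrib]

lemma EE_mono (ρ : Matrix (Q n) (Q n) ℂ) (hρ : ρ.PosSemidef) (φ : Q n → ℂ)
    (X Y : Matrix A2 A2 ℂ) (hp : (X + Y).PosSemidef) (hm : (X - Y).PosSemidef) :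
    EE ρ φ (pw Y n) ≤ EE ρ φ (pw X n) := by
  have h := EE_nonneg ρ hρ φ _ (pw_sub_posSemidef (n := n) X Y hp hm)
  rw [EE_sub] at h
  exact sub_nonneg.1 h

lemma EE_ptr (ρ : Matrix (Q n) (Q n) ℂ) (φ : Q n → ℂ) (K : Matrix A2 A2 ℂ) :
    EE ρ φ (pw K n) = EE ρ (star φ) (pw (ptr K) n) := by
  simp only [EE, pw, ptr, Matrix.of_apply, Pi.star_apply, star_star]
  refine Finset.sum_congr rfl fun a _ => Finset.sum_congr rfl fun a' _ => ?_
  rw [Finset.sum_comm]
  refine Finset.sum_congr rfl fun b _ => Finset.sum_congr rfl fun b' _ => ?_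
  ring

lemma quad_eq_EE (Φ : Matrix (Fin 2) (Fin 2) ℂ → Matrix (Fin 2) (Fin 2) ℂ)
    (ρ : Matrix (Q n) (Q n) ℂ) (φ : Q n → ℂ) :
    ∑ b, ∑ b', star (φ b) * tensorPow Φ n ρ b b' * φ b' = EE ρ φ (pw (choi Φ) n) := by
  simp only [EE, pw, choi, tensorPow, Matrix.of_apply, Finset.mul_sum, Finset.sum_mul]
  calc ∑ b, ∑ b', ∑ a, ∑ a', star (φ b) *
        ((∏ s, Φ (Matrix.single (a s) (a' s) 1) (b s) (b' s)) * ρ a a') * φ b'
      = ∑ b, ∑ a, ∑ b', ∑ a', star (φ b) *
        ((∏ s, Φ (Matrix.single (a s) (a' s) 1) (b s) (b' s)) * ρ a a') * φ b' :=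
        Finset.sum_congr rfl fun b _ => Finset.sum_comm
    _ = ∑ a, ∑ b, ∑ b', ∑ a', star (φ b) *
        ((∏ s, Φ (Matrix.single (a s) (a' s) 1) (b s) (b' s)) * ρ a a') * φ b' := Finset.sum_comm
    _ = ∑ a, ∑ b, ∑ a', ∑ b', star (φ b) *
        ((∏ s, Φ (Matrix.single (a s) (a' s) 1) (b s) (b' s)) * ρ a a') * φ b' :=
        Finset.sum_congr rfl fun a _ => Finset.sum_congr rfl fun b _ => Finset.sum_comm
    _ = ∑ a, ∑ a', ∑ b, ∑ b', star (φ b) *
        ((∏ s, Φ (Matrix.single (a s) (a' s) 1) (b s) (b' s)) * ρ a a') * φ b' :=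
        Finset.sum_congr rfl fun a _ => Finset.sum_comm
    _ = _ := by
        refine Finset.sum_congr rfl fun a _ => Finset.sum_congr rfl fun a' _ =>
          Finset.sum_congr rfl fun b _ => Finset.sum_congr rfl fun b' _ => ?_
        ring

end Qubits

end Vale.Agent.Lib.P358
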