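import Vale.Agent.Lib.P358.Bound

namespace Vale.Agent.Lib.P358

/-- **A family of single-letter upper bounds on the classical capacity of the generalized
amplitude-damping channel.**  Let `S₀, S₁ > 0` and `y` satisfy the three quadratic inequalities
`hA`, `hB`, `hC` (they certify `A_{γ,ν}^{⊗ n}(ρ) ≤ diag(S₀,S₁)^{⊗ n}` for all `n` and all, possibly
entangled, `n`-qubit states `ρ`), and let `0 < s < 1`.  Then `C(A_{γ,ν})` is at most the larger of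
the values at `t = γν` and `t = 1 - γ(1-ν)` of
`(1 - t) log₂ (S₀ / (1 - s)) + t log₂ (S₁ / s)`. -/
theorem capacity_le_of_certificate (γ ν S₀ S₁ y s : ℝ) (hγ : γ ∈ Set.Icc (0 : ℝ) 1) (hν : ν ∈ Set.Icc (0 : ℝ) 1)
    (hs : s ∈ Set.Ioo (0 : ℝ) 1) (hS0 : 0 < S₀) (hS1 : 0 < S₁)
    (h0 : 1 - γ * ν ≤ S₀) (h1 : 1 - γ * (1 - ν) ≤ S₁)
    (hA : (Real.sqrt (1 - γ) - y) ^ 2 ≤ (S₁ - γ * ν) * (S₀ - γ * (1 - ν)))
    (hB : (Real.sqrt (1 - γ) + y) ^ 2 ≤ (S₁ + γ * ν) * (S₀ + γ * (1 - ν)))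
    (hC : y ^ 2 ≤ (S₀ - (1 - γ * ν)) * (S₁ - (1 - γ * (1 - ν)))) :
    capacity γ ν ≤
      ((max ((1 - γ * ν) * Real.logb 2 (S₀ / (1 - s)) + γ * ν * Real.logb 2 (S₁ / s))
        (γ * (1 - ν) * Real.logb 2 (S₀ / (1 - s)) + (1 - γ * (1 - ν)) * Real.logb 2 (S₁ / s)) : ℝ) :
        EReal) := by
  obtain ⟨hγ0, hγ1⟩ := hγ
  obtain ⟨hν0, hν1⟩ := hν
  obtain ⟨hs0, hs1⟩ := hs
  have hlog2 : 0 < Real.log 2 := Real.log_pos (by norm_num)
  set L₀ := Real.log S₀ - Real.log (1 - s) with hL0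
  set L₁ := Real.log S₁ - Real.log s with hL1
  have e0 : Real.logb 2 (S₀ / (1 - s)) = L₀ / Real.log 2 := by
    rw [Real.logb, Real.log_div hS0.ne' (by linarith : (1 - s) ≠ 0)]
  have e1 : Real.logb 2 (S₁ / s) = L₁ / Real.log 2 := by
    rw [Real.logb, Real.log_div hS1.ne' hs0.ne']
  set B := max ((1 - γ * ν) * L₀ + γ * ν * L₁) (γ * (1 - ν) * L₀ + (1 - γ * (1 - ν)) * L₁) with hBdef
  have eB : max ((1 - γ * ν) * Real.logb 2 (S₀ / (1 - s)) + γ * ν * Real.logb 2 (S₁ / s))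
      (γ * (1 - ν) * Real.logb 2 (S₀ / (1 - s)) + (1 - γ * (1 - ν)) * Real.logb 2 (S₁ / s))
      = B / Real.log 2 := by
    rw [e0, e1, hBdef, ← max_div_div_right hlog2.le]
    congr 1 <;> ring
  rw [eB]
  unfold capacity
  refine iSup_le fun n => iSup_le fun hn => iSup_le fun x => iSup_le fun hx => ?_
  rw [EReal.coe_le_coe_iff]
  have h := holevo_le γ ν S₀ S₁ y s B hγ0 hγ1 hν0 hν1 hs0 hs1 hS0 hS1 h0 h1 hA hB hC
    (le_max_left _ _) (le_max_right _ _) x hx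
  have hn' : (0 : ℝ) < n := by exact_mod_cast hn
  rw [div_le_iff₀ hn']
  calc x ≤ n * B / Real.log 2 := h
    _ = B / Real.log 2 * n := by ring

end Vale.Agent.Lib.P358
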