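import Vale.Agent.Lib.P358.R2Defs

namespace Vale.Agent.Lib.P358

open Matrix Finset
open scoped ComplexOrder

variable {n : ℕ}

/-- for a positive semidefinite `Y` the matrix `|Y p q|²` is positive semidefinite -/
lemma sum_normSq_nonneg {ι : Type*} [Fintype ι] (Y : Matrix ι ι ℂ) (hY : Y.PosSemidef)
    (u : ι → ℝ) : 0 ≤ ∑ p, ∑ q, u p * u q * Complex.normSq (Y p q) := by
  have hW : (Y ⊙ Yᵀ).PosSemidef := hY.hadamard hY.transpose
  have hU : (vecMulVec (fun p => (u p : ℂ)) (star fun p => (u p : ℂ))).PosSemidef :=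
    posSemidef_vecMulVec_self_star _
  have h := pairing_nonneg _ _ hW hU
  have e : ∑ p, ∑ q, (Y ⊙ Yᵀ) p q * vecMulVec (fun p => (u p : ℂ)) (star fun p => (u p : ℂ)) p q
      = ((∑ p, ∑ q, u p * u q * Complex.normSq (Y p q) : ℝ) : ℂ) := by
    push_cast
    refine Finset.sum_congr rfl fun p _ => Finset.sum_congr rfl fun q _ => ?_
    have h1 : Y q p = star (Y p q) := (hY.1.apply q p).symm
    simp only [Matrix.hadamard_apply, Matrix.transpose_apply, vecMulVec_apply, Pi.star_apply, h1]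
    rw [Complex.normSq_eq_conj_mul_self]
    simp only [Complex.star_def, Complex.conj_ofReal]
    ring
  rw [e] at h
  exact Complex.zero_le_real.1 h

/-- complete positivity: `(id₂ ⊗ Φ^{⊗ n})(X)` is positive semidefinite -/
lemma blockMap_posSemidef (Φ : Matrix (Fin 2) (Fin 2) ℂ → Matrix (Fin 2) (Fin 2) ℂ)
    (hΦ : (choi Φ).PosSemidef) (X : Matrix (Q (n + 1)) (Q (n + 1)) ℂ) (hX : X.PosSemidef) :
    (Matrix.of fun (p q : Fin 2 × Q n) => tensorPow Φ n (blk X p.1 q.1) p.2 q.2).PosSemidef := by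
  apply PosSemidef.of_dotProduct_mulVec_nonneg
  · apply Matrix.IsHermitian.ext
    rintro ⟨i, k⟩ ⟨j, l⟩
    simp only [Matrix.of_apply, tensorPow, blk, star_sum, star_mul', star_prod]
    rw [Finset.sum_comm]
    refine Finset.sum_congr rfl fun a _ => Finset.sum_congr rfl fun a' _ => ?_
    have h1 : star (X (Fin.cons j a' : Q (n + 1)) (Fin.cons i a : Q (n + 1)))
        = X (Fin.cons i a : Q (n + 1)) (Fin.cons j a' : Q (n + 1)) := hX.1.apply _ _
    have h2 : ∀ s, star (Φ (Matrix.single (a' s) (a s) 1) (l s) (k s))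
        = Φ (Matrix.single (a s) (a' s) 1) (k s) (l s) := fun s =>
      hΦ.1.apply (a s, k s) (a' s, l s)
    rw [h1]
    simp only [h2]
  · intro φ
    -- index set: (i, a, k)
    let e1 : Fin 2 × Q n × Q n → Q (n + 1) := fun p => (Fin.cons p.1 p.2.1 : Q (n + 1))
    let e2 : Fin 2 × Q n × Q n → Q n × Q n := fun p => p.2
    let e3 : Fin 2 × Q n × Q n → Fin 2 × Q n := fun p => (p.1, p.2.2)
    have hW : ((X.submatrix e1 e1) ⊙
        ((vecMulVec (star φ) (star (star φ))).submatrix e3 e3)).PosSemidef :=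
      (hX.submatrix _).hadamard ((posSemidef_vecMulVec_self_star (star φ)).submatrix _)
    have hT : ((pw (choi Φ) n).submatrix e2 e2).PosSemidef := (pw_posSemidef _ hΦ).submatrix _
    have h := pairing_nonneg _ _ hW hT
    have e : star φ ⬝ᵥ ((Matrix.of fun (p q : Fin 2 × Q n) =>
        tensorPow Φ n (blk X p.1 q.1) p.2 q.2) *ᵥ φ)
        = ∑ p, ∑ q, ((X.submatrix e1 e1) ⊙
          ((vecMulVec (star φ) (star (star φ))).submatrix e3 e3)) p q *
          ((pw (choi Φ) n).submatrix e2 e2) p q := by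
      simp only [dotProduct, mulVec, Pi.star_apply, Matrix.of_apply, tensorPow, blk,
        Fintype.sum_prod_type, Matrix.hadamard_apply, Matrix.submatrix_apply, vecMulVec_apply,
        star_star, pw, choi, e1, e2, e3, Finset.mul_sum, Finset.sum_mul]
      refine Finset.sum_congr rfl fun i _ => ?_
      -- LHS: ∑ k, ∑ j, ∑ l, ∑ a, ∑ a' ;  RHS: ∑ a, ∑ k, ∑ j, ∑ a', ∑ l
      obtain ⟨F, hF⟩ : ∃ F : Q n → Fin 2 → Q n → Q n → Q n → ℂ, ∀ k j l a a', F k j l a a' =
          star (φ (i, k)) * ((∏ s, Φ (Matrix.single (a s) (a' s) 1) (k s) (l s)) *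
            X (Fin.cons i a : Q (n + 1)) (Fin.cons j a' : Q (n + 1)) * φ (j, l)) :=
        ⟨_, fun _ _ _ _ _ => rfl⟩
      simp only [← hF]
      calc ∑ k, ∑ j, ∑ l, ∑ a, ∑ a', F k j l a a'
          = ∑ k, ∑ j, ∑ a, ∑ l, ∑ a', F k j l a a' :=
            Finset.sum_congr rfl fun k _ => Finset.sum_congr rfl fun j _ => Finset.sum_comm
        _ = ∑ k, ∑ a, ∑ j, ∑ l, ∑ a', F k j l a a' :=
            Finset.sum_congr rfl fun k _ => Finset.sum_comm
        _ = ∑ a, ∑ k, ∑ j, ∑ l, ∑ a', F k j l a a' := Finset.sum_comm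
        _ = ∑ a, ∑ k, ∑ j, ∑ a', ∑ l, F k j l a a' :=
            Finset.sum_congr rfl fun a _ => Finset.sum_congr rfl fun k _ =>
              Finset.sum_congr rfl fun j _ => Finset.sum_comm
        _ = _ := by
            refine Finset.sum_congr rfl fun a _ => Finset.sum_congr rfl fun k _ =>
              Finset.sum_congr rfl fun j _ => Finset.sum_congr rfl fun a' _ =>
              Finset.sum_congr rfl fun l _ => ?_
            rw [hF]
            ring
    rw [e]
    exact h

end Vale.Agent.Lib.P358
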