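import Vale.Agent.Lib.P358.R2BlockA

namespace Vale.Agent.Lib.P358

open Matrix Finset
open scoped ComplexOrder

variable {n : ℕ}

lemma wn_offdiag_symm (Φ : Matrix (Fin 2) (Fin 2) ℂ → Matrix (Fin 2) (Fin 2) ℂ)
    (hΦ : (choi Φ).PosSemidef) (G : Q n → ℝ)
    (X : Matrix (Q (n + 1)) (Q (n + 1)) ℂ) (hX : X.PosSemidef) :
    wn G (tensorPow Φ n (blk X 1 0)) = wn G (tensorPow Φ n (blk X 0 1)) := by
  have hY := (blockMap_posSemidef Φ hΦ X hX).isHermitian
  have h1 : ∀ k l : Q n, tensorPow Φ n (blk X 1 0) k l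
      = star (tensorPow Φ n (blk X 0 1) l k) := by
    intro k l
    have := hY.apply ((1 : Fin 2), k) ((0 : Fin 2), l)
    simp only [Matrix.of_apply] at this
    exact this.symm
  unfold wn
  rw [Finset.sum_comm]
  apply Finset.sum_congr rfl
  intro l _
  apply Finset.sum_congr rfl
  intro k _
  rw [h1 k l]
  have : Complex.normSq (star (tensorPow Φ n (blk X 0 1) l k))
      = Complex.normSq (tensorPow Φ n (blk X 0 1) l k) := Complex.normSq_conj _
  rw [this]
  ring

private lemma quad_form (Φ : Matrix (Fin 2) (Fin 2) ℂ → Matrix (Fin 2) (Fin 2) ℂ)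
    (hΦ : (choi Φ).PosSemidef) (G : Q n → ℝ)
    (X : Matrix (Q (n + 1)) (Q (n + 1)) ℂ) (hX : X.PosSemidef) (x y : ℝ) :
    0 ≤ x ^ 2 * wn G (tensorPow Φ n (blk X 0 0)) + y ^ 2 * wn G (tensorPow Φ n (blk X 1 1))
      - 2 * x * y * wn G (tensorPow Φ n (blk X 0 1)) := by
  have hY := blockMap_posSemidef Φ hΦ X hX
  have h := sum_normSq_nonneg _ hY (fun p : Fin 2 × Q n => (if p.1 = 0 then x else -y) * G p.2)
  have hterm : ∀ (c c' : ℝ) (i j : Fin 2),
      ∑ k : Q n, ∑ l : Q n, c * G k * (c' * G l) * Complex.normSq (tensorPow Φ n (blk X i j) k l)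
        = c * c' * wn G (tensorPow Φ n (blk X i j)) := by
    intro c c' i j
    unfold wn
    rw [Finset.mul_sum]
    apply Finset.sum_congr rfl
    intro k _
    rw [Finset.mul_sum]
    apply Finset.sum_congr rfl
    intro l _
    ring
  simp only [Fintype.sum_prod_type, Fin.sum_univ_two, Matrix.of_apply, if_true,
    one_ne_zero, if_false, Finset.sum_add_distrib, Fin.isValue] at h
  rw [hterm, hterm, hterm, hterm, wn_offdiag_symm Φ hΦ G X hX] at h
  linarith

lemma wn_offdiag_sq_le (Φ : Matrix (Fin 2) (Fin 2) ℂ → Matrix (Fin 2) (Fin 2) ℂ)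
    (hΦ : (choi Φ).PosSemidef) (G : Q n → ℝ)
    (X : Matrix (Q (n + 1)) (Q (n + 1)) ℂ) (hX : X.PosSemidef) :
    (wn G (tensorPow Φ n (blk X 0 1))) ^ 2
      ≤ wn G (tensorPow Φ n (blk X 0 0)) * wn G (tensorPow Φ n (blk X 1 1)) := by
  have hq := quad_form Φ hΦ G X hX
  set a := wn G (tensorPow Φ n (blk X 0 0)) with ha
  set b := wn G (tensorPow Φ n (blk X 1 1)) with hb
  set c := wn G (tensorPow Φ n (blk X 0 1)) with hc
  have ha0 : 0 ≤ a := by
    have := hq 1 0
    linarith
  have hb0 : 0 ≤ b := by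
    have := hq 0 1
    linarith
  rcases ha0.lt_or_eq with hpos | hzero
  · have h1 := hq c a
    have h2 : 0 ≤ a * (a * b - c ^ 2) := by nlinarith
    have h3 : 0 ≤ a * b - c ^ 2 := by
      by_contra hneg
      have : a * (a * b - c ^ 2) < 0 := mul_neg_of_pos_of_neg hpos (not_le.mp hneg)
      linarith
    linarith
  · rcases hb0.lt_or_eq with hpos | hzero'
    · have h1 := hq b c
      have h2 : 0 ≤ b * (a * b - c ^ 2) := by nlinarith
      have h3 : 0 ≤ a * b - c ^ 2 := by
        by_contra hneg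
        have : b * (a * b - c ^ 2) < 0 := mul_neg_of_pos_of_neg hpos (not_le.mp hneg)
        linarith
      linarith
    · have h1 := hq c 1
      rw [← hzero, ← hzero'] at h1 ⊢
      nlinarith

private lemma wn_nonneg' {d : Type*} [Fintype d] (G : d → ℝ) (hG : ∀ x, 0 ≤ G x)
    (A : Matrix d d ℂ) : 0 ≤ wn G A := by
  unfold wn
  apply Finset.sum_nonneg
  intro x _
  apply Finset.sum_nonneg
  intro y _
  exact mul_nonneg (mul_nonneg (hG x) (hG y)) (Complex.normSq_nonneg _)

private lemma wn_comb_aux {d : Type*} [Fintype d] (G : d → ℝ) (hG : ∀ x, 0 ≤ G x)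
    (A B : Matrix d d ℂ) (α β p q : ℝ) :
    p * q * wn G ((α : ℂ) • A + (β : ℂ) • B)
      ≤ (p + q) * (q * α ^ 2 * wn G A + p * β ^ 2 * wn G B) := by
  unfold wn
  simp only [Finset.mul_sum, ← Finset.sum_add_distrib]
  apply Finset.sum_le_sum
  intro x _
  apply Finset.sum_le_sum
  intro y _
  have hg : 0 ≤ G x * G y := mul_nonneg (hG x) (hG y)
  have key : p * q * Complex.normSq (((α : ℂ) • A + (β : ℂ) • B) x y)
      ≤ (p + q) * (q * α ^ 2 * Complex.normSq (A x y) + p * β ^ 2 * Complex.normSq (B x y)) := by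
    simp only [Matrix.add_apply, Matrix.smul_apply, smul_eq_mul, Complex.normSq_apply,
      Complex.add_re, Complex.add_im, Complex.mul_re, Complex.mul_im, Complex.ofReal_re,
      Complex.ofReal_im]
    nlinarith [sq_nonneg (q * α * (A x y).re - p * β * (B x y).re),
      sq_nonneg (q * α * (A x y).im - p * β * (B x y).im)]
  nlinarith [mul_le_mul_of_nonneg_left key hg]

private lemma wn_comb_pos {d : Type*} [Fintype d] (G : d → ℝ) (hG : ∀ x, 0 ≤ G x)
    (A B : Matrix d d ℂ)
    (α β a b L : ℝ) (hα : 0 < α) (hβ : 0 < β) (ha : 0 < a) (hb : 0 < b)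
    (hA : wn G A ≤ L * a ^ 2) (hB : wn G B ≤ L * b ^ 2) :
    wn G ((α : ℂ) • A + (β : ℂ) • B) ≤ L * (α * a + β * b) ^ 2 := by
  have h := wn_comb_aux G hG A B α β (α * a) (β * b)
  have hp : 0 < α * a := mul_pos hα ha
  have hq : 0 < β * b := mul_pos hβ hb
  have h1 : (α * a + β * b) * (β * b * α ^ 2 * wn G A + α * a * β ^ 2 * wn G B)
      ≤ (α * a + β * b) * (β * b * α ^ 2 * (L * a ^ 2) + α * a * β ^ 2 * (L * b ^ 2)) := by
    apply mul_le_mul_of_nonneg_left _ (by positivity)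
    apply add_le_add
    · exact mul_le_mul_of_nonneg_left hA (by positivity)
    · exact mul_le_mul_of_nonneg_left hB (by positivity)
  have h2 : (α * a) * (β * b) * wn G ((α : ℂ) • A + (β : ℂ) • B)
      ≤ (α * a) * (β * b) * (L * (α * a + β * b) ^ 2) := by
    calc _ ≤ _ := h
      _ ≤ _ := h1
      _ = _ := by ring
  exact le_of_mul_le_mul_left h2 (mul_pos hp hq)

/-- Minkowski-type estimate in the weighted Hilbert-Schmidt norm -/
lemma wn_comb_le {d : Type*} [Fintype d] (G : d → ℝ) (hG : ∀ x, 0 ≤ G x) (A B : Matrix d d ℂ)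
    (α β a b L : ℝ) (hα : 0 ≤ α) (hβ : 0 ≤ β) (ha : 0 ≤ a) (hb : 0 ≤ b) (hL : 0 ≤ L)
    (hA : wn G A ≤ L * a ^ 2) (hB : wn G B ≤ L * b ^ 2) :
    wn G ((α : ℂ) • A + (β : ℂ) • B) ≤ L * (α * a + β * b) ^ 2 := by
  have hscale : ∀ (γ : ℝ) (C : Matrix d d ℂ), wn G ((γ : ℂ) • C) = γ ^ 2 * wn G C := by
    intro γ C
    unfold wn
    rw [Finset.mul_sum]
    apply Finset.sum_congr rfl
    intro x _
    rw [Finset.mul_sum]
    apply Finset.sum_congr rfl
    intro y _
    rw [Matrix.smul_apply, smul_eq_mul, Complex.normSq_mul, Complex.normSq_ofReal]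
    ring
  rcases hα.lt_or_eq with hα' | hα'
  · rcases hβ.lt_or_eq with hβ' | hβ'
    · -- perturbation of `a`, `b`
      have hev : ∀ ε : ℝ, 0 < ε →
          wn G ((α : ℂ) • A + (β : ℂ) • B) ≤ L * (α * (a + ε) + β * (b + ε)) ^ 2 := by
        intro ε hε
        apply wn_comb_pos G hG A B α β (a + ε) (b + ε) L hα' hβ' (by linarith) (by linarith)
        · refine hA.trans (mul_le_mul_of_nonneg_left ?_ hL)
          exact pow_le_pow_left₀ ha (by linarith) 2
        · refine hB.trans (mul_le_mul_of_nonneg_left ?_ hL)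
          exact pow_le_pow_left₀ hb (by linarith) 2
      have hcont : Filter.Tendsto (fun ε : ℝ => L * (α * (a + ε) + β * (b + ε)) ^ 2)
          (nhdsWithin 0 (Set.Ioi 0)) (nhds (L * (α * (a + 0) + β * (b + 0)) ^ 2)) := by
        apply Filter.Tendsto.mono_left _ nhdsWithin_le_nhds
        apply Continuous.tendsto
        fun_prop
      have := ge_of_tendsto hcont (Filter.eventually_of_mem self_mem_nhdsWithin
        (fun ε hε => hev ε hε))
      simpa using this
    · rw [← hβ']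
      simp only [Complex.ofReal_zero, zero_smul, add_zero, zero_mul]
      rw [hscale]
      calc α ^ 2 * wn G A ≤ α ^ 2 * (L * a ^ 2) := mul_le_mul_of_nonneg_left hA (by positivity)
        _ = L * (α * a) ^ 2 := by ring
  · rw [← hα']
    simp only [Complex.ofReal_zero, zero_smul, zero_add, zero_mul]
    rw [hscale]
    calc β ^ 2 * wn G B ≤ β ^ 2 * (L * b ^ 2) := mul_le_mul_of_nonneg_left hB (by positivity)
      _ = L * (β * b) ^ 2 := by ring

end Vale.Agent.Lib.P358
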