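import Vale.Agent.Lib.P358.R2Main

namespace Vale.Agent.Lib.P358

/-- version with reference state `diag(1-s, s)` and the input population `q` -/
theorem capacity_le_collision (γ ν s K : ℝ) (hγ : γ ∈ Set.Icc (0 : ℝ) 1)
    (hν : ν ∈ Set.Icc (0 : ℝ) 1) (hs : s ∈ Set.Ioo (0 : ℝ) 1)
    (hK : ∀ q ∈ Set.Icc (0 : ℝ) 1,
      (1 - ((1 - γ) * q + γ * ν)) ^ 2 / (1 - s) + ((1 - γ) * q + γ * ν) ^ 2 / s
        + 2 * (1 - γ) * q * (1 - q) / Real.sqrt (s * (1 - s)) ≤ K) :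
    capacity γ ν ≤ ((Real.logb 2 K : ℝ) : EReal) := by
  obtain ⟨hs0, hs1⟩ := hs
  have h1s : 0 < 1 - s := by linarith
  have e0 : Real.sqrt (1 - s) ^ 2 = 1 - s := Real.sq_sqrt h1s.le
  have e1 : Real.sqrt s ^ 2 = s := Real.sq_sqrt hs0.le
  have e2 : Real.sqrt (1 - s) * Real.sqrt s = Real.sqrt (s * (1 - s)) := by
    rw [mul_comm s, Real.sqrt_mul h1s.le]
  apply capacity_le_renyi2 γ ν (Real.sqrt (1 - s)) (Real.sqrt s) K hγ hν
    (Real.sqrt_pos.2 h1s) (Real.sqrt_pos.2 hs0) (by rw [e0, e1]; ring)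
  intro p q hp hq
  rw [e0, e1, e2]
  rcases (add_nonneg hp hq).eq_or_lt with h | hT
  · have hp' : p = 0 := by linarith
    have hq' : q = 0 := by linarith
    subst hp'; subst hq'
    simp
  · set T := p + q with hTdef
    have hq1 : q / T ∈ Set.Icc (0 : ℝ) 1 :=
      ⟨div_nonneg hq hT.le, by rw [div_le_one hT]; linarith⟩
    have h := hK (q / T) hq1
    have h' := mul_le_mul_of_nonneg_right h (sq_nonneg T)
    have hp' : p = T - q := by rw [hTdef]; ring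
    have hsq : 0 < Real.sqrt (s * (1 - s)) := Real.sqrt_pos.2 (mul_pos hs0 h1s)
    calc ((1 - γ * ν) * p + γ * (1 - ν) * q) ^ 2 / (1 - s)
          + (γ * ν * p + (1 - γ * (1 - ν)) * q) ^ 2 / s
          + 2 * (1 - γ) * p * q / Real.sqrt (s * (1 - s))
        = ((1 - ((1 - γ) * (q / T) + γ * ν)) ^ 2 / (1 - s) + ((1 - γ) * (q / T) + γ * ν) ^ 2 / s
          + 2 * (1 - γ) * (q / T) * (1 - q / T) / Real.sqrt (s * (1 - s))) * T ^ 2 := by
          rw [hp']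
          field_simp
          ring
      _ ≤ K * T ^ 2 := h'

/-- closed form for the amplitude-damping channel -/
theorem capacity_ad_le_closed (γ r : ℝ) (hγ : γ ∈ Set.Icc (0 : ℝ) 1) (hr : 0 < r)
    (hD : (1 - γ) * (1 + r ^ 2) < 2 * r) :
    capacity γ 0 ≤
      ((Real.logb 2 (2 * γ * (1 + r ^ 2) / (r * (2 * r - (1 - γ) * (1 + r ^ 2)))) : ℝ) : EReal) := by
  have hN : 0 < 1 + r ^ 2 := by positivity
  have hw : 0 < Real.sqrt (1 + r ^ 2) := Real.sqrt_pos.2 hN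
  have hw2 : Real.sqrt (1 + r ^ 2) ^ 2 = 1 + r ^ 2 := Real.sq_sqrt hN.le
  set w := Real.sqrt (1 + r ^ 2) with hwdef
  have hD' : 0 < 2 * r - (1 - γ) * (1 + r ^ 2) := by linarith
  set D := 2 * r - (1 - γ) * (1 + r ^ 2) with hDdef
  apply capacity_le_renyi2 γ 0 (r / w) (1 / w) _ hγ ⟨le_rfl, zero_le_one⟩ (by positivity)
    (by positivity)
    (by rw [div_pow, div_pow, hw2]; field_simp; ring)
  intro p q hp hq
  have e0 : (r / w) ^ 2 = r ^ 2 / (1 + r ^ 2) := by rw [div_pow, hw2]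
  have e1 : (1 / w) ^ 2 = 1 / (1 + r ^ 2) := by rw [div_pow, hw2, one_pow]
  have e2 : r / w * (1 / w) = r / (1 + r ^ 2) := by
    rw [div_mul_div_comm, mul_one, ← pow_two, hw2]
  rw [e0, e1, e2]
  have key : D * ((p + γ * q) ^ 2 + (1 - γ) ^ 2 * r ^ 2 * q ^ 2 + 2 * (1 - γ) * r * p * q)
      ≤ 2 * γ * r * (p + q) ^ 2 := by
    have hid : 2 * γ * r * (p + q) ^ 2
        - D * ((p + γ * q) ^ 2 + (1 - γ) ^ 2 * r ^ 2 * q ^ 2 + 2 * (1 - γ) * r * p * q)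
        = (1 - γ) * (D * q - (r - 1) * (p + q)) ^ 2 := by
      rw [hDdef]; ring
    have : 0 ≤ (1 - γ) * (D * q - (r - 1) * (p + q)) ^ 2 :=
      mul_nonneg (by linarith [hγ.2]) (sq_nonneg _)
    linarith
  have e3 : ((1 - γ * 0) * p + γ * (1 - 0) * q) ^ 2 / (r ^ 2 / (1 + r ^ 2))
      + (γ * 0 * p + (1 - γ * (1 - 0)) * q) ^ 2 / (1 / (1 + r ^ 2))
      + 2 * (1 - γ) * p * q / (r / (1 + r ^ 2))
      = (1 + r ^ 2) / (r ^ 2 * D)
        * (D * ((p + γ * q) ^ 2 + (1 - γ) ^ 2 * r ^ 2 * q ^ 2 + 2 * (1 - γ) * r * p * q)) := by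
    field_simp
    ring
  have e4 : 2 * γ * (1 + r ^ 2) / (r * D) * (p + q) ^ 2
      = (1 + r ^ 2) / (r ^ 2 * D) * (2 * γ * r * (p + q) ^ 2) := by
    field_simp
  rw [e3, e4]
  exact mul_le_mul_of_nonneg_left key (by positivity)

end Vale.Agent.Lib.P358
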