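import Vale.Agent.Lib.P358.Bound

namespace Vale.Agent.Lib.P358

open Matrix Finset
open scoped ComplexOrder

/-- weighted Hilbert-Schmidt square norm `∑ G x G y |Z x y|²` -/
noncomputable def wn {d : Type*} [Fintype d] (G : d → ℝ) (Z : Matrix d d ℂ) : ℝ :=
  ∑ x, ∑ y, G x * G y * Complex.normSq (Z x y)

/-- the `(i,j)` block of a matrix on `n+1` qubits with respect to the first qubit -/
def blk {n : ℕ} (X : Matrix (Q (n + 1)) (Q (n + 1)) ℂ) (i j : Fin 2) : Matrix (Q n) (Q n) ℂ :=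
  fun k l => X (Fin.cons i k : Q (n + 1)) (Fin.cons j l : Q (n + 1))

end Vale.Agent.Lib.P358
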