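import Vale.Agent.Lib.P358.R2Rec
import Vale.Agent.Lib.P358.R2BlockB

namespace Vale.Agent.Lib.P358

open Matrix Finset
open scoped ComplexOrder

lemma wn_smul {d : Type*} [Fintype d] (G : d → ℝ) (c : ℝ) (A : Matrix d d ℂ) :
    wn G ((c : ℂ) • A) = c ^ 2 * wn G A := by
  simp only [wn, Matrix.smul_apply, smul_eq_mul, Complex.normSq_mul, Complex.normSq_ofReal,
    Finset.mul_sum]
  exact Finset.sum_congr rfl fun x _ => Finset.sum_congr rfl fun y _ => by ring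

lemma wn_nonneg {d : Type*} [Fintype d] (G : d → ℝ) (hG : ∀ x, 0 ≤ G x) (A : Matrix d d ℂ) :
    0 ≤ wn G A :=
  Finset.sum_nonneg fun x _ => Finset.sum_nonneg fun y _ =>
    mul_nonneg (mul_nonneg (hG x) (hG y)) (Complex.normSq_nonneg _)

lemma trace_re_nonneg {d : Type*} [Fintype d] (X : Matrix d d ℂ) (hX : X.PosSemidef) :
    0 ≤ X.trace.re := (Complex.le_def.1 hX.trace_nonneg).1

/-- multiplicativity-type bound for the weighted 2-norm of the outputs of `A_{γ,ν}^{⊗ n}` -/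
lemma wn_gadc_pow_le (γ ν a₀ a₁ K : ℝ) (hγ0 : 0 ≤ γ) (hγ1 : γ ≤ 1) (hν0 : 0 ≤ ν) (hν1 : ν ≤ 1)
    (ha0 : 0 < a₀) (ha1 : 0 < a₁) (hK0 : 0 ≤ K)
    (hK : ∀ p q : ℝ, 0 ≤ p → 0 ≤ q →
      ((1 - γ * ν) * p + γ * (1 - ν) * q) ^ 2 / a₀ ^ 2
        + (γ * ν * p + (1 - γ * (1 - ν)) * q) ^ 2 / a₁ ^ 2
        + 2 * (1 - γ) * p * q / (a₀ * a₁) ≤ K * (p + q) ^ 2) :
    ∀ (n : ℕ) (X : Matrix (Q n) (Q n) ℂ), X.PosSemidef →
      wn (fun x : Q n => ∏ s, (![1 / a₀, 1 / a₁] : Fin 2 → ℝ) (x s)) (tensorPow (gadc γ ν) n X)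
        ≤ K ^ n * X.trace.re ^ 2 := by
  intro n
  induction n with
  | zero =>
    intro X hX
    obtain ⟨z, hz⟩ : ∃ z : Q 0, ∀ x : Q 0, x = z := ⟨default, fun x => Subsingleton.elim _ _⟩
    have him : (X z z).im = 0 := by
      have h := hX.1.apply z z
      exact Complex.conj_eq_iff_im.1 h
    have e : wn (fun x : Q 0 => ∏ s, (![1 / a₀, 1 / a₁] : Fin 2 → ℝ) (x s))
        (tensorPow (gadc γ ν) 0 X) = Complex.normSq (X z z) := by
      simp only [wn, tensorPow, Fintype.sum_subsingleton _ z, Finset.univ_eq_empty,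
        Finset.prod_empty, one_mul]
    have e2 : X.trace = X z z := by
      simp only [Matrix.trace, Matrix.diag_apply, Fintype.sum_subsingleton _ z]
    rw [e, e2, Complex.normSq_apply, him]
    simp [pow_two]
  | succ n ih =>
    intro X hX
    have hchoi := choi_gadc_posSemidef γ ν hγ0 hγ1 hν0 hν1
    set g : Fin 2 → ℝ := ![1 / a₀, 1 / a₁] with hg
    have hg0 : ∀ b, 0 ≤ g b := by
      intro b
      fin_cases b
      · simpa [hg] using ha0.le
      · simpa [hg] using ha1.le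
    set Gn : Q n → ℝ := fun x => ∏ s, g (x s) with hGn
    have hGn0 : ∀ x, 0 ≤ Gn x := fun x => Finset.prod_nonneg fun s _ => hg0 _
    set A := tensorPow (gadc γ ν) n (blk X 0 0) with hAdef
    set B := tensorPow (gadc γ ν) n (blk X 1 1) with hBdef
    set C := tensorPow (gadc γ ν) n (blk X 0 1) with hCdef
    set C' := tensorPow (gadc γ ν) n (blk X 1 0) with hC'def
    set p := (blk X 0 0).trace.re with hp
    set q := (blk X 1 1).trace.re with hq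
    have hp0 : 0 ≤ p := trace_re_nonneg _ (blk_posSemidef X hX 0)
    have hq0 : 0 ≤ q := trace_re_nonneg _ (blk_posSemidef X hX 1)
    have hL : 0 ≤ K ^ n := pow_nonneg hK0 n
    have hA : wn Gn A ≤ K ^ n * p ^ 2 := ih _ (blk_posSemidef X hX 0)
    have hB : wn Gn B ≤ K ^ n * q ^ 2 := ih _ (blk_posSemidef X hX 1)
    have hA0 : 0 ≤ wn Gn A := wn_nonneg _ hGn0 _
    have hB0 : 0 ≤ wn Gn B := wn_nonneg _ hGn0 _
    have hC0 : 0 ≤ wn Gn C := wn_nonneg _ hGn0 _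
    have hCsq : (wn Gn C) ^ 2 ≤ (K ^ n * (p * q)) ^ 2 := by
      calc (wn Gn C) ^ 2 ≤ wn Gn A * wn Gn B := wn_offdiag_sq_le _ hchoi Gn X hX
        _ ≤ (K ^ n * p ^ 2) * (K ^ n * q ^ 2) := mul_le_mul hA hB hB0 (by positivity)
        _ = (K ^ n * (p * q)) ^ 2 := by ring
    have hC : wn Gn C ≤ K ^ n * (p * q) :=
      le_of_sq_le_sq hCsq (by positivity)
    have hC' : wn Gn C' = wn Gn C := wn_offdiag_symm _ hchoi Gn X hX
    have e00 : blk (tensorPow (gadc γ ν) (n + 1) X) 0 0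
        = ((1 - γ * ν : ℝ) : ℂ) • A + ((γ * (1 - ν) : ℝ) : ℂ) • B := by
      rw [tensorPow_succ]
      simp [Fin.sum_univ_two, gadc, Matrix.single, hAdef, hBdef]
    have e11 : blk (tensorPow (gadc γ ν) (n + 1) X) 1 1
        = ((γ * ν : ℝ) : ℂ) • A + ((1 - γ * (1 - ν) : ℝ) : ℂ) • B := by
      rw [tensorPow_succ]
      simp [Fin.sum_univ_two, gadc, Matrix.single, hAdef, hBdef]
    have e01 : blk (tensorPow (gadc γ ν) (n + 1) X) 0 1
        = ((Real.sqrt (1 - γ) : ℝ) : ℂ) • C := by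
      rw [tensorPow_succ]
      simp [Fin.sum_univ_two, gadc, Matrix.single, hCdef]
    have e10 : blk (tensorPow (gadc γ ν) (n + 1) X) 1 0
        = ((Real.sqrt (1 - γ) : ℝ) : ℂ) • C' := by
      rw [tensorPow_succ]
      simp [Fin.sum_univ_two, gadc, Matrix.single, hC'def]
    have h1 : 0 ≤ γ * ν := mul_nonneg hγ0 hν0
    have h2 : 0 ≤ γ * (1 - ν) := mul_nonneg hγ0 (by linarith)
    have h3 : 0 ≤ 1 - γ * ν := by nlinarith
    have h4 : 0 ≤ 1 - γ * (1 - ν) := by nlinarith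
    have b00 := wn_comb_le Gn hGn0 A B _ _ p q (K ^ n) h3 h2 hp0 hq0 hL hA hB
    have b11 := wn_comb_le Gn hGn0 A B _ _ p q (K ^ n) h1 h4 hp0 hq0 hL hA hB
    have htr : X.trace.re = p + q := by
      rw [trace_succ, Complex.add_re]
    rw [wn_succ]
    simp only [Fin.sum_univ_two]
    rw [e00, e01, e10, e11, wn_smul, wn_smul, hC', Real.sq_sqrt (by linarith), htr]
    have hg0' : g 0 = 1 / a₀ := by simp [hg]
    have hg1' : g 1 = 1 / a₁ := by simp [hg]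
    rw [hg0', hg1']
    have hKpq := hK p q hp0 hq0
    have ha0' : 0 < 1 / a₀ := by positivity
    have ha1' : 0 < 1 / a₁ := by positivity
    calc 1 / a₀ * (1 / a₀) * wn Gn (((1 - γ * ν : ℝ) : ℂ) • A + ((γ * (1 - ν) : ℝ) : ℂ) • B)
          + 1 / a₀ * (1 / a₁) * ((1 - γ) * wn Gn C)
          + (1 / a₁ * (1 / a₀) * ((1 - γ) * wn Gn C)
          + 1 / a₁ * (1 / a₁) * wn Gn (((γ * ν : ℝ) : ℂ) • A + ((1 - γ * (1 - ν) : ℝ) : ℂ) • B))
        ≤ 1 / a₀ * (1 / a₀) * (K ^ n * ((1 - γ * ν) * p + γ * (1 - ν) * q) ^ 2)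
          + 1 / a₀ * (1 / a₁) * ((1 - γ) * (K ^ n * (p * q)))
          + (1 / a₁ * (1 / a₀) * ((1 - γ) * (K ^ n * (p * q)))
          + 1 / a₁ * (1 / a₁) * (K ^ n * (γ * ν * p + (1 - γ * (1 - ν)) * q) ^ 2)) := by
          have hγ' : 0 ≤ 1 - γ := by linarith
          gcongr
      _ = K ^ n * (((1 - γ * ν) * p + γ * (1 - ν) * q) ^ 2 / a₀ ^ 2
          + (γ * ν * p + (1 - γ * (1 - ν)) * q) ^ 2 / a₁ ^ 2
          + 2 * (1 - γ) * p * q / (a₀ * a₁)) := by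
          field_simp
          ring
      _ ≤ K ^ n * (K * (p + q) ^ 2) := mul_le_mul_of_nonneg_left hKpq hL
      _ = K ^ (n + 1) * (p + q) ^ 2 := by ring

end Vale.Agent.Lib.P358
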