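import Vale.Agent.Lib.P358.R2Defs

namespace Vale.Agent.Lib.P358

open Matrix Finset
open scoped ComplexOrder

variable {d : Type*} [Fintype d] [DecidableEq d]

omit [DecidableEq d] in
lemma wn_pos (A : Matrix d d ℂ) (htr : A.trace = 1) (G : d → ℝ) (hG : ∀ x, 0 < G x) :
    0 < wn G A := by
  have hnn : ∀ x ∈ (univ : Finset d), 0 ≤ ∑ y, G x * G y * Complex.normSq (A x y) :=
    fun x _ => Finset.sum_nonneg fun y _ =>
      mul_nonneg (mul_nonneg (hG x).le (hG y).le) (Complex.normSq_nonneg _)
  rcases (Finset.sum_nonneg hnn).eq_or_lt with h | h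
  · exfalso
    have h0 := (Finset.sum_eq_zero_iff_of_nonneg hnn).1 h.symm
    have hz : ∀ x, A x x = 0 := by
      intro x
      have h1 := h0 x (Finset.mem_univ x)
      have h2 := (Finset.sum_eq_zero_iff_of_nonneg (fun y _ =>
        mul_nonneg (mul_nonneg (hG x).le (hG y).le) (Complex.normSq_nonneg _))).1 h1 x
          (Finset.mem_univ x)
      rcases mul_eq_zero.1 h2 with h3 | h3
      · exact absurd h3 (mul_pos (hG x) (hG x)).ne'
      · exact Complex.normSq_eq_zero.1 h3
    have : A.trace = 0 := by
      simp only [Matrix.trace, Matrix.diag_apply]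
      exact Finset.sum_eq_zero fun x _ => hz x
    rw [htr] at this
    exact one_ne_zero this
  · exact h

omit [DecidableEq d] in
/-- the weighted norm in spectral coordinates -/
lemma wn_eq_spectral (A : Matrix d d ℂ) (lam : d → ℝ) (U : d → d → ℂ)
    (hU : ∀ x y, A x y = ∑ i, (lam i : ℂ) * (U x i * star (U y i))) (G : d → ℝ) :
    wn G A = ∑ i, ∑ j, lam i * lam j *
      Complex.normSq (∑ x, (G x : ℂ) * (U x i * star (U x j))) := by
  apply Complex.ofReal_injective
  have hns : ∀ z : ℂ, ((Complex.normSq z : ℝ) : ℂ) = z * star z := by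
    intro z
    rw [Complex.normSq_eq_conj_mul_self, mul_comm]; rfl
  simp only [wn]
  push_cast
  simp only [hns]
  have hstarA : ∀ x y, star (A x y) = ∑ j, (lam j : ℂ) * (star (U x j) * U y j) := by
    intro x y
    rw [hU x y, star_sum]
    refine Finset.sum_congr rfl fun j _ => ?_
    rw [star_mul', star_mul', star_star]
    have : star (lam j : ℂ) = (lam j : ℂ) := Complex.conj_ofReal _
    rw [this]
  have hstarM : ∀ i j, star (∑ x, (G x : ℂ) * (U x i * star (U x j)))
      = ∑ y, (G y : ℂ) * (star (U y i) * U y j) := by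
    intro i j
    rw [star_sum]
    refine Finset.sum_congr rfl fun y _ => ?_
    rw [star_mul', star_mul', star_star]
    have : star (G y : ℂ) = (G y : ℂ) := Complex.conj_ofReal _
    rw [this]
  calc ∑ x, ∑ y, (G x : ℂ) * (G y : ℂ) * (A x y * star (A x y))
      = ∑ x, ∑ y, ∑ i, ∑ j, (lam i : ℂ) * (lam j : ℂ) *
          (((G x : ℂ) * (U x i * star (U x j))) * ((G y : ℂ) * (star (U y i) * U y j))) := by
        refine Finset.sum_congr rfl fun x _ => Finset.sum_congr rfl fun y _ => ?_
        rw [hstarA x y, hU x y, Finset.sum_mul_sum, Finset.mul_sum]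
        refine Finset.sum_congr rfl fun i _ => ?_
        rw [Finset.mul_sum]
        exact Finset.sum_congr rfl fun j _ => by ring
    _ = ∑ x, ∑ i, ∑ y, ∑ j, (lam i : ℂ) * (lam j : ℂ) *
          (((G x : ℂ) * (U x i * star (U x j))) * ((G y : ℂ) * (star (U y i) * U y j))) :=
        Finset.sum_congr rfl fun x _ => Finset.sum_comm
    _ = ∑ i, ∑ x, ∑ y, ∑ j, (lam i : ℂ) * (lam j : ℂ) *
          (((G x : ℂ) * (U x i * star (U x j))) * ((G y : ℂ) * (star (U y i) * U y j))) :=
        Finset.sum_comm
    _ = ∑ i, ∑ x, ∑ j, ∑ y, (lam i : ℂ) * (lam j : ℂ) *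
          (((G x : ℂ) * (U x i * star (U x j))) * ((G y : ℂ) * (star (U y i) * U y j))) :=
        Finset.sum_congr rfl fun i _ => Finset.sum_congr rfl fun x _ => Finset.sum_comm
    _ = ∑ i, ∑ j, ∑ x, ∑ y, (lam i : ℂ) * (lam j : ℂ) *
          (((G x : ℂ) * (U x i * star (U x j))) * ((G y : ℂ) * (star (U y i) * U y j))) :=
        Finset.sum_congr rfl fun i _ => Finset.sum_comm
    _ = _ := by
        refine Finset.sum_congr rfl fun i _ => Finset.sum_congr rfl fun j _ => ?_
        rw [hstarM i j, Finset.sum_mul_sum, Finset.mul_sum]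
        exact Finset.sum_congr rfl fun x _ => by rw [Finset.mul_sum]

/-- `D(A ‖ diag G⁻²) ≤ log Tr (A G A G)` (natural logarithms). -/
lemma cross_sub_entropy_le_log (A : Matrix d d ℂ) (hA : A.PosSemidef) (htr : A.trace = 1)
    (G : d → ℝ) (hG : ∀ x, 0 < G x) :
    (∑ x, (A x x).re * (2 * Real.log (G x))) - ∑ i, Real.negMulLog (hA.1.eigenvalues i)
      ≤ Real.log (wn G A) := by
  obtain ⟨U, hU, hrow, hcol⟩ := exists_spectral A hA.1
  set lam := hA.1.eigenvalues with hlam
  have hnn : ∀ i, 0 ≤ lam i := fun i => hA.eigenvalues_nonneg i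
  have hsum : ∑ i, lam i = 1 := by
    have h := hA.1.trace_eq_sum_eigenvalues
    rw [htr] at h
    have : ((∑ i, lam i : ℝ) : ℂ) = 1 := by rw [h]; push_cast; rfl
    exact_mod_cast this
  -- the diagonal weights
  set a : d → ℝ := fun i => ∑ x, G x * Complex.normSq (U x i) with ha
  have hapos : ∀ i, 0 < a i := by
    intro i
    have hnn' : ∀ x ∈ (univ : Finset d), 0 ≤ G x * Complex.normSq (U x i) :=
      fun x _ => mul_nonneg (hG x).le (Complex.normSq_nonneg _)
    rcases (Finset.sum_nonneg hnn').eq_or_lt with h | h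
    · exfalso
      have h0 := (Finset.sum_eq_zero_iff_of_nonneg hnn').1 h.symm
      have : ∑ x, Complex.normSq (U x i) = 0 := Finset.sum_eq_zero fun x hx => by
        rcases mul_eq_zero.1 (h0 x hx) with h | h
        · exact absurd h (hG x).ne'
        · exact h
      rw [hcol i] at this
      exact one_ne_zero this
    · exact h
  -- (i) lower bound of the weighted norm by the diagonal terms
  have hdiag : ∀ i, Complex.normSq (∑ x, (G x : ℂ) * (U x i * star (U x i))) = a i * a i := by
    intro i
    have : ∑ x, (G x : ℂ) * (U x i * star (U x i)) = ((a i : ℝ) : ℂ) := by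
      rw [ha]
      push_cast
      refine Finset.sum_congr rfl fun x _ => ?_
      rw [Complex.normSq_eq_conj_mul_self, mul_comm (U x i)]; rfl
    rw [this, Complex.normSq_ofReal]
  have h1 : ∑ i, lam i * (lam i * (a i * a i)) ≤ wn G A := by
    rw [wn_eq_spectral A lam U hU G]
    refine Finset.sum_le_sum fun i _ => ?_
    have := Finset.single_le_sum (f := fun j => lam i * lam j *
      Complex.normSq (∑ x, (G x : ℂ) * (U x i * star (U x j))))
      (fun j _ => mul_nonneg (mul_nonneg (hnn i) (hnn j)) (Complex.normSq_nonneg _))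
      (Finset.mem_univ i)
    simp only [hdiag] at this
    calc lam i * (lam i * (a i * a i)) = lam i * lam i * (a i * a i) := by ring
      _ ≤ _ := this
  -- (ii) Jensen with weights lam
  set D : d → ℝ := fun i => if lam i = 0 then 1 else 1 / (lam i * (a i * a i)) with hD
  have hDpos : ∀ i, 0 < D i := by
    intro i
    simp only [hD]
    split_ifs with h
    · exact one_pos
    · have : 0 < lam i := lt_of_le_of_ne (hnn i) (Ne.symm h)
      exact one_div_pos.2 (mul_pos this (mul_pos (hapos i) (hapos i)))
  have hJ := sum_mul_neg_log_le lam D hnn hsum hDpos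
  have hJr : ∑ i, lam i / D i = ∑ i, lam i * (lam i * (a i * a i)) := by
    refine Finset.sum_congr rfl fun i _ => ?_
    simp only [hD]
    split_ifs with h
    · rw [h]; simp
    · rw [one_div, div_inv_eq_mul]
  have hJl : -∑ i, lam i * Real.log (D i)
      = ∑ i, (lam i * Real.log (lam i) + lam i * (2 * Real.log (a i))) := by
    rw [← Finset.sum_neg_distrib]
    refine Finset.sum_congr rfl fun i _ => ?_
    simp only [hD]
    split_ifs with h
    · rw [h]; simp
    · rw [one_div, Real.log_inv, Real.log_mul h (mul_pos (hapos i) (hapos i)).ne',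
        Real.log_mul (hapos i).ne' (hapos i).ne']
      ring
  rw [hJr, hJl] at hJ
  have hSpos : 0 < ∑ i, lam i * (lam i * (a i * a i)) := by
    have hnn' : ∀ i ∈ (univ : Finset d), 0 ≤ lam i * (lam i * (a i * a i)) :=
      fun i _ => mul_nonneg (hnn i) (mul_nonneg (hnn i) (mul_pos (hapos i) (hapos i)).le)
    rcases (Finset.sum_nonneg hnn').eq_or_lt with h | h
    · exfalso
      have h0 := (Finset.sum_eq_zero_iff_of_nonneg hnn').1 h.symm
      have : ∑ i, lam i = 0 := Finset.sum_eq_zero fun i hi => by
        rcases mul_eq_zero.1 (h0 i hi) with h | h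
        · exact h
        · rcases mul_eq_zero.1 h with h | h
          · exact h
          · exact absurd h (mul_pos (hapos i) (hapos i)).ne'
      rw [hsum] at this
      exact one_ne_zero this
    · exact h
  have h2 : Real.log (∑ i, lam i * (lam i * (a i * a i))) ≤ Real.log (wn G A) :=
    Real.log_le_log hSpos h1
  -- (iii) Jensen for each column
  have h3 : ∀ i, ∑ x, Complex.normSq (U x i) * Real.log (G x) ≤ Real.log (a i) := by
    intro i
    have h := sum_mul_neg_log_le (fun x => Complex.normSq (U x i)) (fun x => 1 / G x)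
      (fun x => Complex.normSq_nonneg _) (hcol i) (fun x => one_div_pos.2 (hG x))
    have e1 : -∑ x, Complex.normSq (U x i) * Real.log (1 / G x)
        = ∑ x, Complex.normSq (U x i) * Real.log (G x) := by
      rw [← Finset.sum_neg_distrib]
      refine Finset.sum_congr rfl fun x _ => ?_
      rw [one_div, Real.log_inv]; ring
    have e2 : ∑ x, Complex.normSq (U x i) / (1 / G x) = a i := by
      rw [ha]
      refine Finset.sum_congr rfl fun x _ => ?_
      rw [one_div, div_inv_eq_mul, mul_comm]
    rw [e1, e2] at h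
    exact h
  -- (iv) the cross term in spectral coordinates
  have h4 : ∑ x, (A x x).re * (2 * Real.log (G x))
      = ∑ i, lam i * (2 * ∑ x, Complex.normSq (U x i) * Real.log (G x)) := by
    simp_rw [diag_re_eq A lam U hU, Finset.sum_mul, Finset.mul_sum]
    rw [Finset.sum_comm]
    exact Finset.sum_congr rfl fun i _ => Finset.sum_congr rfl fun x _ => by ring
  have h5 : (∑ x, (A x x).re * (2 * Real.log (G x))) - ∑ i, Real.negMulLog (lam i)
      ≤ ∑ i, (lam i * Real.log (lam i) + lam i * (2 * Real.log (a i))) := by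
    rw [h4, ← Finset.sum_sub_distrib]
    refine Finset.sum_le_sum fun i _ => ?_
    have := mul_le_mul_of_nonneg_left (h3 i) (hnn i)
    simp only [Real.negMulLog]
    linarith
  linarith

end Vale.Agent.Lib.P358
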