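import Vale.Agent.Lib.P358.R2Induct
import Vale.Agent.Lib.P358.R2Jensen

namespace Vale.Agent.Lib.P358

open Matrix Finset
open scoped ComplexOrder

variable {n : ℕ}

/-- every value of the `n`-letter Holevo quantity is at most `n log K / log 2`. -/
lemma holevo_le_renyi2 (γ ν a₀ a₁ K : ℝ) (hγ0 : 0 ≤ γ) (hγ1 : γ ≤ 1) (hν0 : 0 ≤ ν) (hν1 : ν ≤ 1)
    (ha0 : 0 < a₀) (ha1 : 0 < a₁) (hsum : a₀ ^ 2 + a₁ ^ 2 = 1) (hK0 : 0 < K)
    (hK : ∀ p q : ℝ, 0 ≤ p → 0 ≤ q →
      ((1 - γ * ν) * p + γ * (1 - ν) * q) ^ 2 / a₀ ^ 2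
        + (γ * ν * p + (1 - γ * (1 - ν)) * q) ^ 2 / a₁ ^ 2
        + 2 * (1 - γ) * p * q / (a₀ * a₁) ≤ K * (p + q) ^ 2)
    (x : ℝ) (hx : x ∈ holevoValues (tensorPow (gadc γ ν) n)) :
    x ≤ n * Real.log K / Real.log 2 := by
  obtain ⟨m, p, ρ, hp, hp1, hρ, rfl⟩ := hx
  have hlog2 : 0 < Real.log 2 := Real.log_pos (by norm_num)
  set Φ := tensorPow (gadc γ ν) n with hΦ
  have hchoi := choi_gadc_posSemidef γ ν hγ0 hγ1 hν0 hν1
  have hω : ∀ a, (Φ (ρ a)).PosSemidef := fun a => tensorPow_posSemidef _ hchoi _ (hρ a).1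
  have hωtr : ∀ a, (Φ (ρ a)).trace = 1 := fun a => by
    rw [hΦ, gadc_pow_trace, (hρ a).2]
  have hbar : (∑ a, (p a : ℂ) • Φ (ρ a)).PosSemidef := by
    apply posSemidef_sum
    intro a _
    exact (hω a).smul (Complex.zero_le_real.2 (hp a))
  have hbartr : (∑ a, (p a : ℂ) • Φ (ρ a)).trace = 1 := by
    rw [Matrix.trace_sum]
    simp only [Matrix.trace_smul, hωtr, smul_eq_mul, mul_one]
    exact_mod_cast hp1
  let g : Fin 2 → ℝ := ![1 / a₀, 1 / a₁]
  let τ : Fin 2 → ℝ := ![a₀ ^ 2, a₁ ^ 2]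
  have hg : ∀ b, 0 < g b := by
    intro b; fin_cases b
    · simpa [g] using ha0
    · simpa [g] using ha1
  have hτ : ∀ b, 0 < τ b := by
    intro b; fin_cases b
    · simpa [τ] using pow_pos ha0 2
    · simpa [τ] using pow_pos ha1 2
  have hgτ : ∀ b, 2 * Real.log (g b) = -Real.log (τ b) := by
    intro b; fin_cases b
    · simp [g, τ, Real.log_pow]
    · simp [g, τ, Real.log_pow]
  have hτsum : ∑ x : Q n, ∏ r, τ (x r) = 1 := by
    have := (Finset.prod_univ_sum (fun _ : Fin n => (Finset.univ : Finset (Fin 2)))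
      (fun _ b => τ b)).symm
    rw [Fintype.piFinset_univ] at this
    rw [this]
    simp [τ, Fin.sum_univ_two, hsum]
  have hGτ : ∀ x : Q n, 2 * Real.log (∏ r, g (x r)) = -Real.log (∏ r, τ (x r)) := by
    intro x
    rw [Real.log_prod (fun r _ => (hg _).ne'), Real.log_prod (fun r _ => (hτ _).ne'),
      Finset.mul_sum, ← Finset.sum_neg_distrib]
    exact Finset.sum_congr rfl fun r _ => hgτ _
  -- upper bound on the entropy of the average output
  have up := entropy_le_cross _ hbar hbartr (fun x : Q n => ∏ r, τ (x r))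
    (fun x => Finset.prod_pos fun r _ => hτ _) hτsum
  -- each output
  have low : ∀ a, (∑ x, (Φ (ρ a) x x).re * (2 * Real.log (∏ r, g (x r))))
      - ∑ i, Real.negMulLog ((hω a).1.eigenvalues i) ≤ n * Real.log K := by
    intro a
    have h1 := cross_sub_entropy_le_log _ (hω a) (hωtr a) (fun x : Q n => ∏ r, g (x r))
      (fun x => Finset.prod_pos fun r _ => hg _)
    have h2 := wn_gadc_pow_le γ ν a₀ a₁ K hγ0 hγ1 hν0 hν1 ha0 ha1 hK0.le hK n (ρ a) (hρ a).1
    rw [(hρ a).2] at h2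
    simp only [Complex.one_re, one_pow, mul_one] at h2
    have h3 := wn_pos _ (hωtr a) (fun x : Q n => ∏ r, g (x r))
      (fun x => Finset.prod_pos fun r _ => hg _)
    have h4 : Real.log (wn (fun x : Q n => ∏ r, g (x r)) (Φ (ρ a))) ≤ Real.log (K ^ n) :=
      Real.log_le_log h3 h2
    rw [Real.log_pow] at h4
    linarith
  have hdiag : ∀ x, ((∑ a, (p a : ℂ) • Φ (ρ a)) x x).re = ∑ a, p a * (Φ (ρ a) x x).re := by
    intro x
    rw [Matrix.sum_apply, Complex.re_sum]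
    refine Finset.sum_congr rfl fun a _ => ?_
    simp [Matrix.smul_apply]
  rw [vnEntropy_eq _ hbar]
  simp only [fun a => vnEntropy_eq _ (hω a)]
  have key : ∑ i, Real.negMulLog (hbar.1.eigenvalues i)
      - ∑ a, p a * ∑ i, Real.negMulLog ((hω a).1.eigenvalues i) ≤ n * Real.log K := by
    have h2' : -∑ x, ((∑ a, (p a : ℂ) • Φ (ρ a)) x x).re * Real.log (∏ r, τ (x r))
        = ∑ a, p a * (∑ x, (Φ (ρ a) x x).re * (2 * Real.log (∏ r, g (x r)))) := by
      simp only [hdiag, hGτ, Finset.sum_mul, mul_neg, Finset.mul_sum, Finset.sum_neg_distrib]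
      rw [Finset.sum_comm]
      refine congrArg Neg.neg ?_
      exact Finset.sum_congr rfl fun a _ => Finset.sum_congr rfl fun x _ => by ring
    have h3' : ∑ a, p a * ((∑ x, (Φ (ρ a) x x).re * (2 * Real.log (∏ r, g (x r))))
        - ∑ i, Real.negMulLog ((hω a).1.eigenvalues i)) ≤ ∑ a, p a * (n * Real.log K) :=
      Finset.sum_le_sum fun a _ => mul_le_mul_of_nonneg_left (low a) (hp a)
    have h4' : ∑ a, p a * (n * Real.log K) = n * Real.log K := by
      rw [← Finset.sum_mul, hp1, one_mul]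
    have h5' : ∑ a, p a * ((∑ x, (Φ (ρ a) x x).re * (2 * Real.log (∏ r, g (x r))))
        - ∑ i, Real.negMulLog ((hω a).1.eigenvalues i))
        = ∑ a, p a * (∑ x, (Φ (ρ a) x x).re * (2 * Real.log (∏ r, g (x r))))
          - ∑ a, p a * ∑ i, Real.negMulLog ((hω a).1.eigenvalues i) := by
      rw [← Finset.sum_sub_distrib]
      exact Finset.sum_congr rfl fun a _ => by ring
    rw [h2'] at up
    linarith
  have e : (∑ i, Real.negMulLog (hbar.1.eigenvalues i)) / Real.log 2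
      - ∑ a, p a * ((∑ i, Real.negMulLog ((hω a).1.eigenvalues i)) / Real.log 2)
      = (∑ i, Real.negMulLog (hbar.1.eigenvalues i)
      - ∑ a, p a * ∑ i, Real.negMulLog ((hω a).1.eigenvalues i)) / Real.log 2 := by
    rw [sub_div]
    congr 1
    rw [Finset.sum_div]
    exact Finset.sum_congr rfl fun a _ => by ring
  rw [e]
  exact div_le_div_of_nonneg_right key hlog2.le

/-- **Collision-divergence bound on the classical capacity of `A_{γ,ν}`.**  Let `a₀, a₁ > 0` with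
`a₀² + a₁² = 1` and let `K` dominate the quadratic form below on the simplex.  Then
`C(A_{γ,ν}) ≤ log₂ K`. -/
theorem capacity_le_renyi2 (γ ν a₀ a₁ K : ℝ) (hγ : γ ∈ Set.Icc (0 : ℝ) 1)
    (hν : ν ∈ Set.Icc (0 : ℝ) 1) (ha0 : 0 < a₀) (ha1 : 0 < a₁) (hsum : a₀ ^ 2 + a₁ ^ 2 = 1)
    (hK : ∀ p q : ℝ, 0 ≤ p → 0 ≤ q →
      ((1 - γ * ν) * p + γ * (1 - ν) * q) ^ 2 / a₀ ^ 2
        + (γ * ν * p + (1 - γ * (1 - ν)) * q) ^ 2 / a₁ ^ 2
        + 2 * (1 - γ) * p * q / (a₀ * a₁) ≤ K * (p + q) ^ 2) :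
    capacity γ ν ≤ ((Real.logb 2 K : ℝ) : EReal) := by
  obtain ⟨hγ0, hγ1⟩ := hγ
  obtain ⟨hν0, hν1⟩ := hν
  have hK0 : 0 < K := by
    have h := hK 1 1 zero_le_one zero_le_one
    have h1 : 0 < ((1 - γ * ν) * 1 + γ * (1 - ν) * 1) ^ 2 / a₀ ^ 2
        + (γ * ν * 1 + (1 - γ * (1 - ν)) * 1) ^ 2 / a₁ ^ 2 := by
      have e : ((1 - γ * ν) * 1 + γ * (1 - ν) * 1) + (γ * ν * 1 + (1 - γ * (1 - ν)) * 1) = 2 := by
        ring
      have h2 : 0 ≤ ((1 - γ * ν) * 1 + γ * (1 - ν) * 1) ^ 2 / a₀ ^ 2 := by positivity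
      have h3 : 0 ≤ (γ * ν * 1 + (1 - γ * (1 - ν)) * 1) ^ 2 / a₁ ^ 2 := by positivity
      rcases h2.eq_or_lt with h2 | h2
      · rcases h3.eq_or_lt with h3 | h3
        · exfalso
          have z1 : ((1 - γ * ν) * 1 + γ * (1 - ν) * 1) = 0 := by
            have := (div_eq_zero_iff.1 h2.symm).resolve_right (by positivity)
            exact pow_eq_zero_iff (two_ne_zero) |>.1 this
          have z2 : (γ * ν * 1 + (1 - γ * (1 - ν)) * 1) = 0 := by
            have := (div_eq_zero_iff.1 h3.symm).resolve_right (by positivity)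
            exact pow_eq_zero_iff (two_ne_zero) |>.1 this
          linarith
        · linarith
      · linarith
    have h4 : 0 ≤ 2 * (1 - γ) * 1 * 1 / (a₀ * a₁) := by
      have : 0 ≤ 1 - γ := by linarith
      positivity
    nlinarith
  unfold capacity
  refine iSup_le fun n => iSup_le fun hn => iSup_le fun x => iSup_le fun hx => ?_
  rw [EReal.coe_le_coe_iff]
  have h := holevo_le_renyi2 γ ν a₀ a₁ K hγ0 hγ1 hν0 hν1 ha0 ha1 hsum hK0 hK x hx
  have hn' : (0 : ℝ) < n := by exact_mod_cast hn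
  rw [div_le_iff₀ hn', Real.logb]
  calc x ≤ n * Real.log K / Real.log 2 := h
    _ = Real.log K / Real.log 2 * n := by ring

end Vale.Agent.Lib.P358
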