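import Vale.Agent.Lib.P358.R2Defs

namespace Vale.Agent.Lib.P358

open Matrix Finset
open scoped ComplexOrder

variable {n : ℕ}

lemma sum_Q_succ {M : Type*} [AddCommMonoid M] (f : Q (n + 1) → M) :
    ∑ x, f x = ∑ b : Fin 2, ∑ k : Q n, f (Fin.cons b k : Q (n + 1)) := by
  rw [← Fintype.sum_prod_type']
  exact (Equiv.sum_comp (Fin.consEquiv (fun _ : Fin (n + 1) => Fin 2)) f).symm

lemma prod_cons {M : Type*} [CommMonoid M] (F : Fin 2 → M) (b : Fin 2) (k : Q n) :
    ∏ s, F ((Fin.cons b k : Q (n + 1)) s) = F b * ∏ s, F (k s) := by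
  rw [Fin.prod_univ_succ]
  simp

lemma tensorPow_succ (Φ : Matrix (Fin 2) (Fin 2) ℂ → Matrix (Fin 2) (Fin 2) ℂ)
    (X : Matrix (Q (n + 1)) (Q (n + 1)) ℂ) (b b' : Fin 2) :
    blk (tensorPow Φ (n + 1) X) b b'
      = ∑ i, ∑ j, Φ (Matrix.single i j 1) b b' • tensorPow Φ n (blk X i j) := by
  ext k l
  simp only [blk, tensorPow, Matrix.sum_apply, Matrix.smul_apply, smul_eq_mul]
  rw [sum_Q_succ]
  refine Finset.sum_congr rfl fun i _ => ?_
  calc ∑ k' : Q n, ∑ L : Q (n + 1),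
        (∏ s, Φ (Matrix.single ((Fin.cons i k' : Q (n + 1)) s) (L s) 1)
          ((Fin.cons b k : Q (n + 1)) s) ((Fin.cons b' l : Q (n + 1)) s)) *
          X (Fin.cons i k' : Q (n + 1)) L
      = ∑ k' : Q n, ∑ j : Fin 2, ∑ l' : Q n,
        Φ (Matrix.single i j 1) b b' * ((∏ s, Φ (Matrix.single (k' s) (l' s) 1) (k s) (l s)) *
          X (Fin.cons i k' : Q (n + 1)) (Fin.cons j l' : Q (n + 1))) := by
        refine Finset.sum_congr rfl fun k' _ => ?_
        rw [sum_Q_succ]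
        refine Finset.sum_congr rfl fun j _ => Finset.sum_congr rfl fun l' _ => ?_
        rw [Fin.prod_univ_succ]
        simp only [Fin.cons_zero, Fin.cons_succ]
        ring
    _ = ∑ j : Fin 2, ∑ k' : Q n, ∑ l' : Q n,
        Φ (Matrix.single i j 1) b b' * ((∏ s, Φ (Matrix.single (k' s) (l' s) 1) (k s) (l s)) *
          X (Fin.cons i k' : Q (n + 1)) (Fin.cons j l' : Q (n + 1))) := Finset.sum_comm
    _ = _ := by
        refine Finset.sum_congr rfl fun j _ => ?_
        rw [Finset.mul_sum]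
        exact Finset.sum_congr rfl fun k' _ => by rw [Finset.mul_sum]

lemma wn_succ (g : Fin 2 → ℝ) (Z : Matrix (Q (n + 1)) (Q (n + 1)) ℂ) :
    wn (fun x : Q (n + 1) => ∏ s, g (x s)) Z
      = ∑ b, ∑ b', g b * g b' * wn (fun x : Q n => ∏ s, g (x s)) (blk Z b b') := by
  simp only [wn, blk]
  rw [sum_Q_succ]
  refine Finset.sum_congr rfl fun b _ => ?_
  calc ∑ k : Q n, ∑ y : Q (n + 1), (∏ s, g ((Fin.cons b k : Q (n + 1)) s)) * (∏ s, g (y s)) *
        Complex.normSq (Z (Fin.cons b k : Q (n + 1)) y)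
      = ∑ k : Q n, ∑ b' : Fin 2, ∑ l : Q n, g b * g b' * ((∏ s, g (k s)) * (∏ s, g (l s)) *
        Complex.normSq (Z (Fin.cons b k : Q (n + 1)) (Fin.cons b' l : Q (n + 1)))) := by
        refine Finset.sum_congr rfl fun k _ => ?_
        rw [sum_Q_succ]
        refine Finset.sum_congr rfl fun b' _ => Finset.sum_congr rfl fun l _ => ?_
        rw [prod_cons g b k, prod_cons g b' l]
        ring
    _ = ∑ b' : Fin 2, ∑ k : Q n, ∑ l : Q n, g b * g b' * ((∏ s, g (k s)) * (∏ s, g (l s)) *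
        Complex.normSq (Z (Fin.cons b k : Q (n + 1)) (Fin.cons b' l : Q (n + 1)))) :=
        Finset.sum_comm
    _ = _ := by
        refine Finset.sum_congr rfl fun b' _ => ?_
        rw [Finset.mul_sum]
        exact Finset.sum_congr rfl fun k _ => by rw [Finset.mul_sum]

lemma trace_succ (X : Matrix (Q (n + 1)) (Q (n + 1)) ℂ) :
    X.trace = (blk X 0 0).trace + (blk X 1 1).trace := by
  simp only [Matrix.trace, Matrix.diag_apply, blk]
  rw [sum_Q_succ, Fin.sum_univ_two]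

lemma blk_posSemidef (X : Matrix (Q (n + 1)) (Q (n + 1)) ℂ) (hX : X.PosSemidef) (i : Fin 2) :
    (blk X i i).PosSemidef :=
  hX.submatrix (fun k : Q n => (Fin.cons i k : Q (n + 1)))

end Vale.Agent.Lib.P358
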