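import Vale.Agent.Lib.P358.Kernel

namespace Vale.Agent.Lib.P358

open Matrix Finset
open scoped ComplexOrder

lemma quad_nonneg (p q r a b : ℝ) (hp : 0 ≤ p) (hq : 0 ≤ q) (h : r ^ 2 ≤ p * q) :
    0 ≤ p * a ^ 2 + 2 * r * a * b + q * b ^ 2 := by
  rcases hp.eq_or_lt with rfl | hp
  · have hr : r = 0 := by nlinarith
    subst hr
    nlinarith [sq_nonneg b]
  · have h1 : 0 ≤ p * (p * a ^ 2 + 2 * r * a * b + q * b ^ 2) := by
      have : p * (p * a ^ 2 + 2 * r * a * b + q * b ^ 2)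
          = (p * a + r * b) ^ 2 + (p * q - r ^ 2) * b ^ 2 := by ring
      rw [this]
      nlinarith [sq_nonneg (p * a + r * b), sq_nonneg b]
    exact nonneg_of_mul_nonneg_right h1 hp

/-- kernels with a `2 × 2` block on `{(0,0),(1,1)}` and diagonal entries at `(0,1)`, `(1,0)` -/
def shapeA (p q r u v : ℝ) : Matrix A2 A2 ℂ := Matrix.of fun i j =>
  if i = (0, 0) ∧ j = (0, 0) then (p : ℂ) else if i = (1, 1) ∧ j = (1, 1) then (q : ℂ)
  else if (i = (0, 0) ∧ j = (1, 1)) ∨ (i = (1, 1) ∧ j = (0, 0)) then (r : ℂ)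
  else if i = (0, 1) ∧ j = (0, 1) then (u : ℂ) else if i = (1, 0) ∧ j = (1, 0) then (v : ℂ) else 0

lemma shapeA_posSemidef (p q r u v : ℝ) (hp : 0 ≤ p) (hq : 0 ≤ q) (hu : 0 ≤ u) (hv : 0 ≤ v)
    (h : r ^ 2 ≤ p * q) : (shapeA p q r u v).PosSemidef := by
  apply PosSemidef.of_dotProduct_mulVec_nonneg
  · apply Matrix.IsHermitian.ext
    rintro ⟨a, b⟩ ⟨a', b'⟩
    fin_cases a <;> fin_cases b <;> fin_cases a' <;> fin_cases b' <;> simp [shapeA]
  · intro x
    have e : star x ⬝ᵥ (shapeA p q r u v *ᵥ x) =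
        ((p * (x (0, 0)).re ^ 2 + 2 * r * (x (0, 0)).re * (x (1, 1)).re + q * (x (1, 1)).re ^ 2
        + (p * (x (0, 0)).im ^ 2 + 2 * r * (x (0, 0)).im * (x (1, 1)).im + q * (x (1, 1)).im ^ 2)
        + u * Complex.normSq (x (0, 1)) + v * Complex.normSq (x (1, 0)) : ℝ) : ℂ) := by
      simp [dotProduct, mulVec, Fintype.sum_prod_type, Fin.sum_univ_two, shapeA]
      apply Complex.ext
      · simp [Complex.normSq_apply, pow_two]
        ring
      · simp [Complex.normSq_apply, pow_two]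
        ring
    rw [e]
    apply Complex.zero_le_real.2
    have h1 := quad_nonneg p q r (x (0, 0)).re (x (1, 1)).re hp hq h
    have h2 := quad_nonneg p q r (x (0, 0)).im (x (1, 1)).im hp hq h
    have h3 := mul_nonneg hu (Complex.normSq_nonneg (x (0, 1)))
    have h4 := mul_nonneg hv (Complex.normSq_nonneg (x (1, 0)))
    linarith

/-- kernels with a `2 × 2` block on `{(0,1),(1,0)}` and diagonal entries at `(0,0)`, `(1,1)` -/
def shapeB (p q r u v : ℝ) : Matrix A2 A2 ℂ :=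
  (shapeA p q r u v).submatrix (fun i : A2 => (i.1, i.2 + 1)) (fun i : A2 => (i.1, i.2 + 1))

lemma shapeB_posSemidef (p q r u v : ℝ) (hp : 0 ≤ p) (hq : 0 ≤ q) (hu : 0 ≤ u) (hv : 0 ≤ v)
    (h : r ^ 2 ≤ p * q) : (shapeB p q r u v).PosSemidef :=
  (shapeA_posSemidef p q r u v hp hq hu hv h).submatrix _

lemma ptr_shapeA (p q r u v : ℝ) : ptr (shapeA p q r u v) = shapeB u v r p q := by
  ext ⟨a, b⟩ ⟨a', b'⟩
  fin_cases a <;> fin_cases b <;> fin_cases a' <;> fin_cases b' <;>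
    simp [shapeA, shapeB, ptr]

lemma ptr_shapeB (p q r u v : ℝ) : ptr (shapeB p q r u v) = shapeA u v r p q := by
  ext ⟨a, b⟩ ⟨a', b'⟩
  fin_cases a <;> fin_cases b <;> fin_cases a' <;> fin_cases b' <;>
    simp [shapeA, shapeB, ptr]

lemma shapeA_add (p q r u v p' q' r' u' v' : ℝ) :
    shapeA p q r u v + shapeA p' q' r' u' v' = shapeA (p + p') (q + q') (r + r') (u + u') (v + v') := by
  ext ⟨a, b⟩ ⟨a', b'⟩
  fin_cases a <;> fin_cases b <;> fin_cases a' <;> fin_cases b' <;>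
    simp [shapeA]

lemma shapeA_sub (p q r u v p' q' r' u' v' : ℝ) :
    shapeA p q r u v - shapeA p' q' r' u' v' = shapeA (p - p') (q - q') (r - r') (u - u') (v - v') := by
  ext ⟨a, b⟩ ⟨a', b'⟩
  fin_cases a <;> fin_cases b <;> fin_cases a' <;> fin_cases b' <;>
    simp [shapeA]

lemma shapeB_add (p q r u v p' q' r' u' v' : ℝ) :
    shapeB p q r u v + shapeB p' q' r' u' v' = shapeB (p + p') (q + q') (r + r') (u + u') (v + v') := by
  simp only [shapeB, ← shapeA_add]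
  rfl

lemma shapeB_sub (p q r u v p' q' r' u' v' : ℝ) :
    shapeB p q r u v - shapeB p' q' r' u' v' = shapeB (p - p') (q - q') (r - r') (u - u') (v - v') := by
  simp only [shapeB, ← shapeA_sub]
  rfl

lemma choi_gadc (γ ν : ℝ) :
    choi (gadc γ ν) = shapeA (1 - γ * ν) (1 - γ * (1 - ν)) (Real.sqrt (1 - γ)) (γ * ν) (γ * (1 - ν)) := by
  ext ⟨a, b⟩ ⟨a', b'⟩
  fin_cases a <;> fin_cases b <;> fin_cases a' <;> fin_cases b' <;>
    simp [shapeA, choi, gadc, Matrix.single]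

/-- the two diagonal entries as a function on `Fin 2` -/
def Sfun (S₀ S₁ : ℝ) : Fin 2 → ℝ := ![S₀, S₁]

lemma shapeA_diag_apply (S₀ S₁ : ℝ) (a b a' b' : Fin 2) :
    shapeA S₀ S₁ 0 S₁ S₀ (a, b) (a', b') = if a = a' ∧ b = b' then (Sfun S₀ S₁ b : ℂ) else 0 := by
  fin_cases a <;> fin_cases b <;> fin_cases a' <;> fin_cases b' <;>
    simp [shapeA, Sfun]

lemma EE_diag {n : ℕ} (ρ : Matrix (Q n) (Q n) ℂ) (φ : Q n → ℂ) (S₀ S₁ : ℝ) :
    EE ρ φ (pw (shapeA S₀ S₁ 0 S₁ S₀) n)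
      = ρ.trace * ((∑ b, (∏ s, Sfun S₀ S₁ (b s)) * Complex.normSq (φ b) : ℝ) : ℂ) := by
  have h : ∀ a b a' b' : Q n, pw (shapeA S₀ S₁ 0 S₁ S₀) n (a, b) (a', b')
      = if a = a' then (if b = b' then ((∏ s, Sfun S₀ S₁ (b s) : ℝ) : ℂ) else 0) else 0 := by
    intro a b a' b'
    simp only [pw, Matrix.of_apply, shapeA_diag_apply]
    rw [Finset.prod_ite_zero]
    by_cases h1 : a = a'
    · by_cases h2 : b = b'
      · subst h1; subst h2; simp
      · have : ¬ ∀ i ∈ (Finset.univ : Finset (Fin n)), a i = a' i ∧ b i = b' i := by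
          intro hcon
          exact h2 (funext fun i => (hcon i (Finset.mem_univ i)).2)
        rw [if_neg this, if_pos h1, if_neg h2]
    · have : ¬ ∀ i ∈ (Finset.univ : Finset (Fin n)), a i = a' i ∧ b i = b' i := by
        intro hcon
        exact h1 (funext fun i => (hcon i (Finset.mem_univ i)).1)
      rw [if_neg this, if_neg h1]
  have step : ∀ a : Q n, ∑ a', ∑ b, ∑ b', ρ a a' * (star (φ b) * φ b') *
      pw (shapeA S₀ S₁ 0 S₁ S₀) n (a, b) (a', b')
      = ρ a a * ((∑ b, (∏ s, Sfun S₀ S₁ (b s)) * Complex.normSq (φ b) : ℝ) : ℂ) := by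
    intro a
    rw [Finset.sum_eq_single a]
    · push_cast
      rw [Finset.mul_sum]
      refine Finset.sum_congr rfl fun b _ => ?_
      rw [Finset.sum_eq_single b]
      · rw [h, if_pos rfl, if_pos rfl, Complex.normSq_eq_conj_mul_self]
        push_cast
        simp only [Complex.star_def]
        ring
      · intro b' _ hb'
        rw [h, if_pos rfl, if_neg (Ne.symm hb'), mul_zero]
      · intro hb
        exact absurd (Finset.mem_univ b) hb
    · intro a' _ ha'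
      refine Finset.sum_eq_zero fun b _ => Finset.sum_eq_zero fun b' _ => ?_
      rw [h, if_neg (Ne.symm ha'), mul_zero]
    · intro ha
      exact absurd (Finset.mem_univ a) ha
  simp only [EE, step, Matrix.trace, Matrix.diag_apply, Finset.sum_mul]

end Vale.Agent.Lib.P358
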